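import Vale.Agent.P243.Defs

open MeasureTheory Set

namespace Vale.Agent.P243

/-- The minimal area of an orthogonal projection of `K` to a plane: the infimum, over all unit
directions `u` (each completed to an orthonormal basis `G`), of the area of the projection of `K` to
the plane `u^⊥`. -/
noncomputable def Amin (K : Set R3) : ℝ := ⨅ G : Frame, (area (shadow G K)).toReal

end Vale.Agent.P243
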