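import Vale.Agent.P243.Defs

open MeasureTheory Set

namespace Vale.Agent.P243

theorem dot_add (x y z : R3) : dot (x + y) z = dot x z + dot y z := by
  simp only [dot, Pi.add_apply]; ring

theorem dot_smul (c : ℝ) (x z : R3) : dot (c • x) z = c * dot x z := by
  simp only [dot, Pi.smul_apply, smul_eq_mul]; ring

theorem dot_comm (x y : R3) : dot x y = dot y x := by
  simp only [dot]; ring

theorem continuous_dot (z : R3) : Continuous fun x : R3 => dot x z := by
  unfold dot; fun_prop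

/-- The orthonormal expansion of a vector. -/
theorem expand (F : Frame) (x : R3) :
    x = dot x F.p • F.p + dot x F.q • F.q + dot x F.u • F.u := by
  let M : Matrix (Fin 3) (Fin 3) ℝ := Matrix.of ![F.p, F.q, F.u]
  have hM : M * M.transpose = 1 := by
    have h1 := F.pp; have h2 := F.qq; have h3 := F.uu
    have h4 := F.pq; have h5 := F.pu; have h6 := F.qu
    simp only [dot] at h1 h2 h3 h4 h5 h6
    ext i j
    fin_cases i <;> fin_cases j <;>
      simp [M, Matrix.mul_apply, Fin.sum_univ_three] <;> linarith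
  have hM' : M.transpose * M = 1 := mul_eq_one_comm.mp hM
  have hx : ∀ j, x j = ∑ k, (M.transpose * M) j k * x k := by
    intro j
    rw [hM']
    simp [Matrix.one_apply]
  ext j
  rw [hx j]
  simp only [Matrix.mul_apply, Fin.sum_univ_three, Matrix.transpose_apply, M, Matrix.of_apply,
    Matrix.cons_val_zero, Matrix.cons_val_one, Matrix.cons_val, dot, Pi.add_apply,
    Pi.smul_apply, smul_eq_mul]
  ring

/-- Linear coordinates on `u^⊥` change area by a constant factor. -/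
theorem area_preimage (Fr : Frame) (F : R3 →ₗ[ℝ] ℝ × ℝ)
    (hker : ∀ x, F x = 0 → ∃ c : ℝ, x = c • Fr.u) (c0 : ℝ × ℝ) :
    ∃ κ : NNReal, 0 < κ ∧ ∀ S : Set (ℝ × ℝ),
      area {b : ℝ × ℝ | F (b.1 • Fr.p + b.2 • Fr.q) + c0 ∈ S} = κ * volume S := by
  let g : ℝ × ℝ →ₗ[ℝ] R3 :=
    (LinearMap.fst ℝ ℝ ℝ).smulRight Fr.p + (LinearMap.snd ℝ ℝ ℝ).smulRight Fr.q
  have hg : ∀ b : ℝ × ℝ, g b = b.1 • Fr.p + b.2 • Fr.q := by
    intro b; simp [g]
  let f : ℝ × ℝ →ₗ[ℝ] ℝ × ℝ := F.comp g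
  have hinj : Function.Injective f := by
    rw [← LinearMap.ker_eq_bot, LinearMap.ker_eq_bot']
    intro b hb
    have hb' : F (b.1 • Fr.p + b.2 • Fr.q) = 0 := by rw [← hg]; exact hb
    obtain ⟨c, hc⟩ := hker _ hb'
    have h1 : b.1 = 0 := by
      have := congrArg (fun x => dot x Fr.p) hc
      simp only [dot_add, dot_smul] at this
      rw [Fr.pp, dot_comm Fr.q Fr.p, Fr.pq, dot_comm Fr.u Fr.p, Fr.pu] at this
      linarith
    have h2 : b.2 = 0 := by
      have := congrArg (fun x => dot x Fr.q) hc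
      simp only [dot_add, dot_smul] at this
      rw [Fr.qq, Fr.pq, dot_comm Fr.u Fr.q, Fr.qu] at this
      linarith
    exact Prod.ext h1 h2
  let L : (ℝ × ℝ) ≃ₗ[ℝ] ℝ × ℝ := LinearMap.linearEquivOfInjective f hinj rfl
  let Lc : (ℝ × ℝ) ≃L[ℝ] ℝ × ℝ := L.toContinuousLinearEquiv
  have hLc : ∀ b : ℝ × ℝ, Lc b = F (b.1 • Fr.p + b.2 • Fr.q) := by
    intro b
    rw [← hg]
    rfl
  let ν : Measure (ℝ × ℝ) := (volume : Measure (ℝ × ℝ)).map Lc
  have : ν.IsAddHaarMeasure := ContinuousLinearEquiv.isAddHaarMeasure_map Lc volume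
  refine ⟨ν.addHaarScalarFactor volume,
    Measure.addHaarScalarFactor_pos_of_isAddHaarMeasure ν volume, ?_⟩
  intro S
  have hν : ν = ν.addHaarScalarFactor volume • (volume : Measure (ℝ × ℝ)) :=
    Measure.isAddLeftInvariant_eq_smul ν volume
  have h1 : {b : ℝ × ℝ | F (b.1 • Fr.p + b.2 • Fr.q) + c0 ∈ S} =
      Lc ⁻¹' ((fun h => h + c0) ⁻¹' S) := by
    ext b
    show _ ↔ Lc b + c0 ∈ S
    rw [hLc]
    rfl
  have h2 : (volume : Measure (ℝ × ℝ)) (Lc ⁻¹' ((fun h => h + c0) ⁻¹' S)) =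
      ν ((fun h => h + c0) ⁻¹' S) := by
    have := MeasurableEquiv.map_apply (μ := (volume : Measure (ℝ × ℝ)))
      Lc.toHomeomorph.toMeasurableEquiv ((fun h => h + c0) ⁻¹' S)
    exact this.symm
  rw [area, h1, h2, measure_preimage_add_right]
  nth_rewrite 1 [hν]
  rfl

/-- The area of a triangle with one side on the line `t = 0`. -/
theorem volume_triangle {l m l' m' τ : ℝ} (hτ : 0 ≤ τ) (hm : m' ≤ m)
    (h : (m - m') * τ = l' - l) :
    volume (regionBetween (fun t : ℝ => l + m * t) (fun t : ℝ => l' + m' * t) (Icc 0 τ)) =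
      ENNReal.ofReal ((l' - l) * τ / 2) := by
  rw [Measure.volume_eq_prod, volume_regionBetween_eq_integral]
  · congr 1
    rw [integral_Icc_eq_integral_Ioc, ← intervalIntegral.integral_of_le hτ]
    have : ((fun t : ℝ => l' + m' * t) - fun t : ℝ => l + m * t)
        = fun t => (l' - l) - (m - m') * t := by
      ext t; simp; ring
    rw [this]
    rw [intervalIntegral.integral_sub (by simp) (by
      apply Continuous.intervalIntegrable; fun_prop)]
    rw [intervalIntegral.integral_const, intervalIntegral.integral_const_mul, integral_id]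
    simp only [smul_eq_mul]
    have : (m - m') * ((τ ^ 2 - 0 ^ 2) / 2) = (l' - l) * τ / 2 := by
      rw [← h]; ring
    rw [this]; ring
  · exact (by fun_prop : Continuous fun t : ℝ => l + m * t).integrableOn_Icc
  · exact (by fun_prop : Continuous fun t : ℝ => l' + m' * t).integrableOn_Icc
  · exact measurableSet_Icc
  · intro x hx
    have h1 : (m - m') * x ≤ (m - m') * τ := by
      apply mul_le_mul_of_nonneg_left hx.2 (by linarith)
    nlinarith

theorem measurableSet_triangle (l m l' m' τ : ℝ) :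
    MeasurableSet (regionBetween (fun t : ℝ => l + m * t) (fun t : ℝ => l' + m' * t)
      (Icc 0 τ)) :=
  measurableSet_regionBetween (by fun_prop) (by fun_prop) measurableSet_Icc

/-- One direction of the covering: everything needed about the base and the shadow. -/
theorem one_direction (Fr : Frame) (F : R3 →ₗ[ℝ] ℝ × ℝ) (hFu : F Fr.u = 0)
    (hker : ∀ x, F x = 0 → ∃ c : ℝ, x = c • Fr.u) (c0 : ℝ × ℝ) {K : Set R3} (hK : IsCompact K)
    {S T : Set (ℝ × ℝ)} (hS : MeasurableSet S) {a : ℝ} (ha : 0 ≤ a)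
    (hvS : volume S ≤ ENNReal.ofReal a) (hvT : volume T = ENNReal.ofReal (1 / 2))
    (hT : ∀ p ∈ T, ∃ x ∈ K, F x + c0 = p) :
    ∃ B : Set (ℝ × ℝ), MeasurableSet B ∧ area B < ⊤ ∧ 0 < area (shadow Fr K) ∧
      area (shadow Fr K) < ⊤ ∧
      (area B).toReal / (area (shadow Fr K)).toReal ≤ 2 * a ∧
      ∀ x, F x + c0 ∈ S → x ∈ cylinder Fr B := by
  obtain ⟨κ, hκ, hκS⟩ := area_preimage Fr F hker c0
  have hsub : {b : ℝ × ℝ | F (b.1 • Fr.p + b.2 • Fr.q) + c0 ∈ T} ⊆ shadow Fr K := by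
    intro b hb
    obtain ⟨x, hxK, hx⟩ := hT _ hb
    have h0 : F (x - (b.1 • Fr.p + b.2 • Fr.q)) = 0 := by
      rw [map_sub, sub_eq_zero]
      exact add_right_cancel hx
    obtain ⟨c, hc⟩ := hker _ h0
    refine ⟨x, hxK, ?_⟩
    have hxe : x = b.1 • Fr.p + b.2 • Fr.q + c • Fr.u := by rw [← hc]; abel
    show (dot x Fr.p, dot x Fr.q) = b
    rw [hxe]
    simp only [dot_add, dot_smul]
    rw [Fr.pp, dot_comm Fr.q Fr.p, Fr.pq, dot_comm Fr.u Fr.p, Fr.pu, Fr.qq,
      dot_comm Fr.u Fr.q, Fr.qu]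
    exact Prod.ext (by simp) (by simp)
  have hlow : (κ : ENNReal) * ENNReal.ofReal (1 / 2) ≤ area (shadow Fr K) := by
    rw [← hvT, ← hκS]
    exact measure_mono hsub
  have hfin : area (shadow Fr K) < ⊤ := by
    apply IsCompact.measure_lt_top
    exact hK.image ((continuous_dot _).prodMk (continuous_dot _))
  have hB : area {b : ℝ × ℝ | F (b.1 • Fr.p + b.2 • Fr.q) + c0 ∈ S} ≤
      (κ : ENNReal) * ENNReal.ofReal a := by
    rw [hκS]
    gcongr
  have hBfin : area {b : ℝ × ℝ | F (b.1 • Fr.p + b.2 • Fr.q) + c0 ∈ S} < ⊤ :=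
    lt_of_le_of_lt hB (ENNReal.mul_lt_top ENNReal.coe_lt_top ENNReal.ofReal_lt_top)
  have hpos' : (0 : ENNReal) < (κ : ENNReal) * ENNReal.ofReal (1 / 2) := by
    apply ENNReal.mul_pos
    · exact_mod_cast hκ.ne'
    · simp
  refine ⟨{b : ℝ × ℝ | F (b.1 • Fr.p + b.2 • Fr.q) + c0 ∈ S}, ?_, hBfin,
    lt_of_lt_of_le hpos' hlow, hfin, ?_, ?_⟩
  · have hcont : Continuous fun b : ℝ × ℝ => F (b.1 • Fr.p + b.2 • Fr.q) + c0 := by
      have : Continuous F := F.continuous_of_finiteDimensional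
      fun_prop
    exact hcont.measurable hS
  · have h1 : (area {b : ℝ × ℝ | F (b.1 • Fr.p + b.2 • Fr.q) + c0 ∈ S}).toReal ≤ κ * a := by
      have := ENNReal.toReal_mono (ENNReal.mul_lt_top ENNReal.coe_lt_top
        ENNReal.ofReal_lt_top).ne hB
      rwa [ENNReal.toReal_mul, ENNReal.coe_toReal, ENNReal.toReal_ofReal ha] at this
    have h2 : (κ : ℝ) * (1 / 2) ≤ (area (shadow Fr K)).toReal := by
      have := ENNReal.toReal_mono hfin.ne hlow
      rwa [ENNReal.toReal_mul, ENNReal.coe_toReal, ENNReal.toReal_ofReal (by norm_num)] at this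
    have hκr : (0 : ℝ) < κ := by exact_mod_cast hκ
    have h3 : 0 < (area (shadow Fr K)).toReal := lt_of_lt_of_le (by positivity) h2
    rw [div_le_iff₀ h3]
    calc (area {b : ℝ × ℝ | F (b.1 • Fr.p + b.2 • Fr.q) + c0 ∈ S}).toReal ≤ κ * a := h1
      _ = 2 * a * (κ * (1 / 2)) := by ring
      _ ≤ 2 * a * (area (shadow Fr K)).toReal := by gcongr
  · intro x hx
    have hexp := expand Fr x
    refine ⟨(dot x Fr.p, dot x Fr.q), ?_, dot x Fr.u, hexp⟩
    show F (dot x Fr.p • Fr.p + dot x Fr.q • Fr.q) + c0 ∈ S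
    have : F x = F (dot x Fr.p • Fr.p + dot x Fr.q • Fr.q) := by
      nth_rewrite 1 [hexp]
      rw [map_add _ _ (dot x Fr.u • Fr.u), map_smul _ _ Fr.u, hFu, smul_zero, add_zero]
    rw [← this]; exact hx

/-- Every nonzero vector that is not vertical extends to a frame. -/
theorem exists_frame (v : R3) (hv : 0 < v 0 ^ 2 + v 1 ^ 2) :
    ∃ Fr : Frame, ∃ R : ℝ, R ≠ 0 ∧ v = R • Fr.u := by
  obtain ⟨r, hr, hr2⟩ : ∃ r : ℝ, 0 < r ∧ r ^ 2 = v 0 ^ 2 + v 1 ^ 2 :=
    ⟨Real.sqrt (v 0 ^ 2 + v 1 ^ 2), Real.sqrt_pos.mpr hv, Real.sq_sqrt hv.le⟩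
  have hv' : 0 < v 0 ^ 2 + v 1 ^ 2 + v 2 ^ 2 := by positivity
  obtain ⟨R, hR, hR2⟩ : ∃ R : ℝ, 0 < R ∧ R ^ 2 = v 0 ^ 2 + v 1 ^ 2 + v 2 ^ 2 :=
    ⟨Real.sqrt (v 0 ^ 2 + v 1 ^ 2 + v 2 ^ 2), Real.sqrt_pos.mpr hv', Real.sq_sqrt hv'.le⟩
  have hR2' : R ^ 2 = r ^ 2 + v 2 ^ 2 := by rw [hR2, hr2]
  refine ⟨⟨![-v 1 / r, v 0 / r, 0], ![-(v 0 * v 2) / (R * r), -(v 1 * v 2) / (R * r), r / R],
    ![v 0 / R, v 1 / R, v 2 / R], ?_, ?_, ?_, ?_, ?_, ?_⟩, R, hR.ne', ?_⟩
  · simp only [dot, Matrix.cons_val_zero, Matrix.cons_val_one, Matrix.cons_val]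
    field_simp
    linarith
  · simp only [dot, Matrix.cons_val_zero, Matrix.cons_val_one, Matrix.cons_val]
    field_simp
    have : v 0 ^ 2 * v 2 ^ 2 + v 1 ^ 2 * v 2 ^ 2 = r ^ 2 * v 2 ^ 2 := by rw [hr2]; ring
    rw [hR2']
    nlinarith
  · simp only [dot, Matrix.cons_val_zero, Matrix.cons_val_one, Matrix.cons_val]
    field_simp
    linarith
  · simp only [dot, Matrix.cons_val_zero, Matrix.cons_val_one, Matrix.cons_val]
    field_simp
    ring
  · simp only [dot, Matrix.cons_val_zero, Matrix.cons_val_one, Matrix.cons_val]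
    field_simp
    ring
  · simp only [dot, Matrix.cons_val_zero, Matrix.cons_val_one, Matrix.cons_val]
    field_simp
    linear_combination (v 2) * hr2
  · ext j
    fin_cases j <;> simp <;> field_simp

end Vale.Agent.P243
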