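import Mathlib

open MeasureTheory Set

namespace Vale.Agent.P243

/-- Three-space, with its standard coordinates. -/
abbrev R3 : Type := Fin 3 → ℝ

/-- The Euclidean inner product. -/
def dot (x y : R3) : ℝ := x 0 * y 0 + x 1 * y 1 + x 2 * y 2

/-- An orthonormal basis `(p, q, u)` of three-space: a unit direction `u` together with orthonormal
coordinate axes `p, q` of the plane `u^⊥`, which identify this plane isometrically with `ℝ × ℝ`. -/
structure Frame where
  p : R3
  q : R3
  u : R3
  pp : dot p p = 1
  qq : dot q q = 1
  uu : dot u u = 1
  pq : dot p q = 0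
  pu : dot p u = 0
  qu : dot q u = 0

/-- The cylinder `B + ℝu`, where the base `B` is the subset of the plane `u^⊥` given by its
orthonormal coordinates. -/
def cylinder (F : Frame) (B : Set (ℝ × ℝ)) : Set R3 :=
  {x | ∃ b ∈ B, ∃ c : ℝ, x = b.1 • F.p + b.2 • F.q + c • F.u}

/-- The orthogonal projection of `K` to the plane `u^⊥`, in orthonormal coordinates. -/
def shadow (F : Frame) (K : Set R3) : Set (ℝ × ℝ) :=
  (fun x => (dot x F.p, dot x F.q)) '' K

/-- The area of a subset of the plane `u^⊥`, given in orthonormal coordinates: its Lebesgue
measure. -/
noncomputable def area (B : Set (ℝ × ℝ)) : ENNReal := volume B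

/-- Convex bodies: compact convex sets with nonempty interior. -/
def IsConvexBody (K : Set R3) : Prop :=
  IsCompact K ∧ Convex ℝ K ∧ (interior K).Nonempty

/-- The directionwise relative area of a finite family of cylinders: the sum of the base areas, each
divided by the area of the projection of `K` along the same direction. -/
noncomputable def relativeArea {m : ℕ} (K : Set R3) (F : Fin m → Frame)
    (B : Fin m → Set (ℝ × ℝ)) : ℝ :=
  ∑ i, (area (B i)).toReal / (area (shadow (F i) K)).toReal

end Vale.Agent.P243
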