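import Vale.Agent.P243.Tetra

open MeasureTheory Set

namespace Vale.Agent.P243

/-- A cylinder with a base given in arbitrary linear coordinates along its direction. -/
theorem cyl_base (c α β : R3) (σ N a0 b0 : ℝ) (hN : 0 < N) (hcc : dot c c = N ^ 2)
    (hc : 0 < c 0 ^ 2 + c 1 ^ 2) (hσ : σ ≠ 0) (hcross : crossv α β = σ • c)
    (S : Set (ℝ × ℝ)) (hS : MeasurableSet S) :
    ∃ (Fr : Frame) (B : Set (ℝ × ℝ)), MeasurableSet B ∧
      area B = ENNReal.ofReal (1 / (|σ| * N)) * volume S ∧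
      ∀ x, (dot x α + a0, dot x β + b0) ∈ S → x ∈ cylinder Fr B := by
  obtain ⟨Fr, R, hR, hcR⟩ := exists_frame c hc
  have hα : dot c α = 0 := by
    have h : dot (crossv α β) α = 0 := by simp [crossv, dot]; ring
    rw [hcross, dot_smul] at h
    exact (mul_eq_zero.mp h).resolve_left hσ
  have hβ : dot c β = 0 := by
    have h : dot (crossv α β) β = 0 := by simp [crossv, dot]; ring
    rw [hcross, dot_smul] at h
    exact (mul_eq_zero.mp h).resolve_left hσ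
  have huα : dot Fr.u α = 0 := by
    rw [hcR, dot_smul] at hα
    exact (mul_eq_zero.mp hα).resolve_left hR
  have huβ : dot Fr.u β = 0 := by
    rw [hcR, dot_smul] at hβ
    exact (mul_eq_zero.mp hβ).resolve_left hR
  have hcu : dot c Fr.u = R := by rw [hcR, dot_smul, Fr.uu, mul_one]
  have hRN : |R| = N := by
    have : R ^ 2 = N ^ 2 := by
      rw [← hcc, hcR, dot_smul, dot_comm Fr.u, dot_smul, Fr.uu]; ring
    rw [← abs_of_pos hN]; exact (sq_eq_sq_iff_abs_eq_abs _ _).mp this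
  let a : ℝ × ℝ := (dot Fr.p α, dot Fr.p β)
  let b : ℝ × ℝ := (dot Fr.q α, dot Fr.q β)
  have hcr : |cr a b| = |σ| * N := by
    have h1 : cr a b = dot (crossv α β) (crossv Fr.p Fr.q) := by
      simp [cr, a, b, crossv, dot]; ring
    rw [h1, frame_cross, hcross, dot_smul, hcu, abs_mul, hRN]
  have hcr0 : cr a b ≠ 0 := by
    intro h; rw [h, abs_zero] at hcr
    have : 0 < |σ| * N := by positivity
    linarith
  refine ⟨Fr, {p | (a.1 * p.1 + b.1 * p.2 + a0, a.2 * p.1 + b.2 * p.2 + b0) ∈ S}, ?_, ?_, ?_⟩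
  · have hcont : Continuous fun p : ℝ × ℝ =>
        (a.1 * p.1 + b.1 * p.2 + a0, a.2 * p.1 + b.2 * p.2 + b0) := by fun_prop
    exact hcont.measurable hS
  · rw [area, preimage_vol a b (a0, b0) hcr0, abs_inv, hcr, one_div]
  · intro x hx
    refine ⟨(dot x Fr.p, dot x Fr.q), ?_, dot x Fr.u, expand Fr x⟩
    have hd : ∀ γ : R3, dot x γ =
        dot x Fr.p * dot Fr.p γ + dot x Fr.q * dot Fr.q γ + dot x Fr.u * dot Fr.u γ := by
      intro γ
      nth_rewrite 1 [expand Fr x]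
      rw [dot_add, dot_add, dot_smul, dot_smul, dot_smul]
    have h1 : a.1 * dot x Fr.p + b.1 * dot x Fr.q + a0 = dot x α + a0 := by
      rw [hd α, huα]; simp only [a, b]; ring
    have h2 : a.2 * dot x Fr.p + b.2 * dot x Fr.q + b0 = dot x β + b0 := by
      rw [hd β, huβ]; simp only [a, b]; ring
    show (a.1 * dot x Fr.p + b.1 * dot x Fr.q + a0, a.2 * dot x Fr.p + b.2 * dot x Fr.q + b0) ∈ S
    rw [h1, h2]; exact hx

/-- The key inequality: the two sides of the fan meet. -/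
theorem main_ineq {η ξ x y z : ℝ} (hη : |η| ≤ 1 / 2) (hξ : |ξ| ≤ 1 / 2) (hx : |x| ≤ 1 / 2)
    (hy : |y| ≤ 1 / 2) (h1 : y = η * (1 - z) + x * ((η ^ 2 - 1 / 4) / 400))
    (h2 : -x = ξ * z + y * ((ξ ^ 2 - 1 / 4) / 400))
    (V1 : 1 / 2 + 1 / 10000 * (η ^ 2 / 64 + η ^ 4 / 16) + 1 / 200000000 < 1 - z + x * η / 200)
    (V2 : 1 / 2 + 1 / 10000 * (ξ ^ 2 / 64 + ξ ^ 4 / 16) + 1 / 200000000 < z + y * ξ / 200) :
    False := by
  have bd : ∀ {p q : ℝ} {P Q : ℝ}, |p| ≤ P → |q| ≤ Q → |p * q| ≤ P * Q := by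
    intro p q P Q hp hq
    rw [abs_mul]
    exact mul_le_mul hp hq (abs_nonneg _) ((abs_nonneg _).trans hp)
  have g1 : 0 ≤ η ^ 2 / 64 + η ^ 4 / 16 := by positivity
  have g2 : 0 ≤ ξ ^ 2 / 64 + ξ ^ 4 / 16 := by positivity
  have hxη := abs_le.mp (bd hx hη)
  have hyξ := abs_le.mp (bd hy hξ)
  have hdz : |z - 1 / 2| ≤ 1 / 800 := by
    rw [abs_le]; constructor <;> linarith [hxη.1, hxη.2, hyξ.1, hyξ.2]
  have hη2 : η ^ 2 ≤ 1 / 4 := by
    rw [← sq_abs]; nlinarith [abs_nonneg η]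
  have hξ2 : ξ ^ 2 ≤ 1 / 4 := by
    rw [← sq_abs]; nlinarith [abs_nonneg ξ]
  have hEη : |1 / 4 - η ^ 2| ≤ 1 / 4 := by
    rw [abs_le]; constructor <;> linarith [sq_nonneg η]
  have hEξ : |1 / 4 - ξ ^ 2| ≤ 1 / 4 := by
    rw [abs_le]; constructor <;> linarith [sq_nonneg ξ]
  have hdy : |y - η / 2| ≤ 3 / 3200 := by
    have e : y - η / 2 = -(η * (z - 1 / 2)) - x * (1 / 4 - η ^ 2) / 400 := by
      nth_rewrite 1 [h1]; ring
    have k1 := abs_le.mp (bd hη hdz)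
    have k2 := abs_le.mp (bd hx hEη)
    rw [e, abs_le]; constructor <;> linarith [k1.1, k1.2, k2.1, k2.2]
  have hdx : |x + ξ / 2| ≤ 3 / 3200 := by
    have e : x + ξ / 2 = -(ξ * (z - 1 / 2)) + y * (1 / 4 - ξ ^ 2) / 400 := by
      have : x = -(ξ * z + y * ((ξ ^ 2 - 1 / 4) / 400)) := by linarith
      nth_rewrite 1 [this]; ring
    have k1 := abs_le.mp (bd hξ hdz)
    have k2 := abs_le.mp (bd hy hEξ)
    rw [e, abs_le]; constructor <;> linarith [k1.1, k1.2, k2.1, k2.2]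
  have hid : x * η + y * ξ = η * ξ * (1 - 2 * z) +
      (y * η * (1 / 4 - ξ ^ 2) - x * ξ * (1 / 4 - η ^ 2)) / 400 := by
    have e1 : x * η = -(ξ * z + y * ((ξ ^ 2 - 1 / 4) / 400)) * η := by
      rw [← h2]; ring
    have e2 : y * ξ = (η * (1 - z) + x * ((η ^ 2 - 1 / 4) / 400)) * ξ := by
      rw [← h1]
    rw [e1, e2]; ring
  have t1 : y * η * (1 / 4 - ξ ^ 2) ≤ η ^ 2 * (1 / 4 - ξ ^ 2) / 2 + 3 / 25600 := by
    have k := abs_le.mp (bd (bd hdy hη) hEξ)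
    have e : y * η * (1 / 4 - ξ ^ 2) = η ^ 2 * (1 / 4 - ξ ^ 2) / 2 +
        (y - η / 2) * η * (1 / 4 - ξ ^ 2) := by ring
    rw [e]; linarith [k.2]
  have t2 : -(x * ξ * (1 / 4 - η ^ 2)) ≤ ξ ^ 2 * (1 / 4 - η ^ 2) / 2 + 3 / 25600 := by
    have k := abs_le.mp (bd (bd hdx hξ) hEη)
    have e : -(x * ξ * (1 / 4 - η ^ 2)) = ξ ^ 2 * (1 / 4 - η ^ 2) / 2 -
        (x + ξ / 2) * ξ * (1 / 4 - η ^ 2) := by ring
    rw [e]; linarith [k.1]
  have t3 : η * ξ * (1 - 2 * z) ≤ η ^ 2 * ξ ^ 2 / 200 + 3 / 2560000 := by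
    rcases le_total 0 (η * ξ) with hs | hs
    · have k := abs_le.mp (bd (bd (bd hη hξ) hξ) hdy)
      have w1 : 1 - 2 * z ≤ y * ξ / 100 := by linarith
      have w2 : η * ξ * (1 - 2 * z) ≤ η * ξ * (y * ξ / 100) := mul_le_mul_of_nonneg_left w1 hs
      have e : η * ξ * (y * ξ / 100) = η ^ 2 * ξ ^ 2 / 200 + η * ξ * ξ * (y - η / 2) / 100 := by
        ring
      rw [e] at w2; linarith [k.2]
    · have k := abs_le.mp (bd (bd (bd hη hξ) hη) hdx)
      have w1 : -(x * η / 100) ≤ 1 - 2 * z := by linarith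
      have w2 : η * ξ * (1 - 2 * z) ≤ η * ξ * (-(x * η / 100)) := mul_le_mul_of_nonpos_left w1 hs
      have e : η * ξ * (-(x * η / 100)) = η ^ 2 * ξ ^ 2 / 200 - η * ξ * η * (x + ξ / 2) / 100 := by
        ring
      rw [e] at w2; linarith [k.1]
  have t4 : 0 ≤ (η ^ 2 - ξ ^ 2) ^ 2 := sq_nonneg _
  have t5 : η ^ 2 * ξ ^ 2 / 400 + (η ^ 2 + ξ ^ 2) / 3200 ≤
      1 / 50 * ((η ^ 2 / 64 + η ^ 4 / 16) + (ξ ^ 2 / 64 + ξ ^ 4 / 16)) := by linarith
  have t6 : x * η + y * ξ ≤ η ^ 2 * ξ ^ 2 / 400 + (η ^ 2 + ξ ^ 2) / 3200 + 18 / 10000000 := by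
    rw [hid]; linarith
  linarith

theorem disc_ivt (f : ℕ → ℝ) (n : ℕ) (hn : 0 < n) (h0 : 0 ≤ f 0) (h1 : f n ≤ 0) :
    ∃ k, k < n ∧ 0 ≤ f k ∧ f (k + 1) ≤ 0 := by
  induction n with
  | zero => exact absurd hn (lt_irrefl _)
  | succ n ih =>
    by_cases h : 0 ≤ f n
    · exact ⟨n, Nat.lt_succ_self n, h, h1⟩
    · have hn' : 0 < n := by
        rcases Nat.eq_zero_or_pos n with h' | h'
        · rw [h'] at h; exact absurd h0 h
        · exact h'
      obtain ⟨k, hk, h2, h3⟩ := ih hn' (le_of_lt (not_le.mp h))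
      exact ⟨k, hk.trans (Nat.lt_succ_self n), h2, h3⟩

/-- The parameters of the fan. -/
noncomputable def et (n : ℕ) (k : ℕ) : ℝ := -(1 / 2) + k / n

noncomputable def ee (η : ℝ) : ℝ := (η ^ 2 - 1 / 4) / 400

noncomputable def bb (n k : ℕ) : ℝ := (et n k + et n (k + 1)) / 400

noncomputable def aa (n k : ℕ) : ℝ := ee (et n k) - et n k * bb n k

noncomputable def tt (n k : ℕ) : ℝ :=
  1 / 2 + 1 / 10000 * (et n k ^ 2 / 64 + et n k ^ 4 / 16) + 1 / 200000000 + 1 / (400 * n)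

theorem et_succ (n k : ℕ) : et n (k + 1) = et n k + 1 / n := by
  simp only [et, Nat.cast_add, Nat.cast_one]; ring

theorem et_zero (n : ℕ) : et n 0 = -(1 / 2) := by simp [et]

theorem et_last {n : ℕ} (hn : 0 < n) : et n n = 1 / 2 := by
  have : (n : ℝ) ≠ 0 := by positivity
  rw [et, div_self this]; norm_num

theorem et_abs {n k : ℕ} (hn : 0 < n) (hk : k ≤ n) : |et n k| ≤ 1 / 2 := by
  have h1 : (0 : ℝ) < n := by exact_mod_cast hn
  have h2 : (k : ℝ) / n ≤ 1 := by rw [div_le_one h1]; exact_mod_cast hk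
  have h3 : (0 : ℝ) ≤ (k : ℝ) / n := by positivity
  rw [et, abs_le]; constructor <;> linarith

/-- Selecting the sector and the exact parameter. -/
theorem select {n : ℕ} (hn : 0 < n) {x y z : ℝ} (hl : 0 ≤ (1 - z) / 2 + y)
    (hr : 0 ≤ (1 - z) / 2 - y) :
    ∃ k, k < n ∧ 0 ≤ y - et n k * (1 - z) - x * ee (et n k) ∧
      y - et n (k + 1) * (1 - z) - x * ee (et n (k + 1)) ≤ 0 ∧
      ∃ η, |η| ≤ 1 / 2 ∧ et n k ≤ η ∧ η ≤ et n (k + 1) ∧ y = η * (1 - z) + x * ee η := by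
  obtain ⟨k, hk, h0, h1⟩ := disc_ivt (fun k => y - et n k * (1 - z) - x * ee (et n k)) n hn
    (by simp only [et_zero, ee]; norm_num; linarith)
    (by simp only [et_last hn, ee]; norm_num; linarith)
  have hle : et n k ≤ et n (k + 1) := by rw [et_succ]; simp
  have hc : ContinuousOn (fun η : ℝ => y - η * (1 - z) - x * ee η) (Icc (et n k) (et n (k + 1))) := by
    unfold ee
    fun_prop
  obtain ⟨η, hη, hη0⟩ := intermediate_value_Icc' hle hc ⟨h1, h0⟩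
  refine ⟨k, hk, h0, h1, η, ?_, hη.1, hη.2, ?_⟩
  · have k1 := abs_le.mp (et_abs hn hk.le)
    have k2 := abs_le.mp (et_abs hn (Nat.succ_le_of_lt hk))
    rw [abs_le]; exact ⟨k1.1.trans hη.1, hη.2.trans k2.2⟩
  · simp only at hη0; linarith

/-- Comparing the discrete heights with the exact ones. -/
theorem height {n k : ℕ} (hn : 0 < n) (hk : k < n) {η x s : ℝ} (hx : |x| ≤ 1 / 2)
    (hη : |η| ≤ 1 / 2)
    (h1 : et n k ≤ η) (h2 : η ≤ et n (k + 1)) (h : tt n k < s + x * bb n k) :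
    1 / 2 + 1 / 10000 * (η ^ 2 / 64 + η ^ 4 / 16) + 1 / 200000000 < s + x * η / 200 := by
  have hn' : (0 : ℝ) < n := by exact_mod_cast hn
  obtain ⟨Δ, hΔ⟩ : ∃ Δ : ℝ, Δ = 1 / n := ⟨_, rfl⟩
  have hΔ0 : 0 < Δ := by rw [hΔ]; positivity
  have e1 : et n (k + 1) = et n k + Δ := by rw [et_succ, hΔ]
  have e2 : (1 : ℝ) / (400 * n) = Δ / 400 := by rw [hΔ]; field_simp
  have hk' := et_abs hn hk.le
  rw [tt, bb, e1, e2] at h
  rw [e1] at h2
  generalize et n k = θ at *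
  have k1 := abs_le.mp hx
  have k2 := abs_le.mp hη
  have k3 := abs_le.mp hk'
  -- the slope error
  have s1 : x * ((θ + (θ + Δ)) / 400) ≤ x * η / 200 + Δ / 800 := by
    have : |x * ((θ + (θ + Δ)) / 2 - η)| ≤ 1 / 2 * (Δ / 2) := by
      rw [abs_mul]
      refine mul_le_mul hx ?_ (abs_nonneg _) (by norm_num)
      rw [abs_le]; constructor <;> linarith
    have := (abs_le.mp this).2
    linarith
  -- the polynomial error
  have s2 : η ^ 2 / 64 + η ^ 4 / 16 ≤ θ ^ 2 / 64 + θ ^ 4 / 16 + Δ := by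
    have d0 : 0 ≤ η - θ := by linarith
    have d1 : η - θ ≤ Δ := by linarith
    have e : η ^ 2 / 64 + η ^ 4 / 16 - (θ ^ 2 / 64 + θ ^ 4 / 16) =
        (η - θ) * ((η + θ) * (1 / 64 + (η ^ 2 + θ ^ 2) / 16)) := by ring
    have hb : (η + θ) * (1 / 64 + (η ^ 2 + θ ^ 2) / 16) ≤ 1 := by
      have q1 : η ^ 2 ≤ 1 / 4 := by nlinarith
      have q2 : θ ^ 2 ≤ 1 / 4 := by nlinarith
      have q3 : η + θ ≤ 1 := by linarith
      have q4 : 0 ≤ 1 / 64 + (η ^ 2 + θ ^ 2) / 16 := by positivity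
      nlinarith
    have : (η - θ) * ((η + θ) * (1 / 64 + (η ^ 2 + θ ^ 2) / 16)) ≤ (η - θ) * 1 :=
      mul_le_mul_of_nonneg_left hb d0
    linarith
  linarith

end Vale.Agent.P243
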