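import Vale.Agent.P243.Fan1

open MeasureTheory Set

namespace Vale.Agent.P243

/-- The base of the `k`-th cylinder in its own coordinates. -/
def sector (n k : ℕ) : Set (ℝ × ℝ) :=
  {p | (0 ≤ p.1 ∧ p.1 ≤ tt n k) ∧ et n k * p.1 ≤ p.2 ∧ p.2 ≤ et n (k + 1) * p.1}

theorem measurableSet_sector (n k : ℕ) : MeasurableSet (sector n k) := by
  apply IsClosed.measurableSet
  apply IsClosed.inter
  · exact (isClosed_le continuous_const continuous_fst).inter
      (isClosed_le continuous_fst continuous_const)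
  · have c1 : Continuous fun p : ℝ × ℝ => et n k * p.1 := by fun_prop
    have c2 : Continuous fun p : ℝ × ℝ => et n (k + 1) * p.1 := by fun_prop
    exact (isClosed_le c1 continuous_snd).inter (isClosed_le continuous_snd c2)

theorem tt_nonneg (n k : ℕ) : 1 / 2 ≤ tt n k := by
  have h1 : 0 ≤ 1 / 10000 * (et n k ^ 2 / 64 + et n k ^ 4 / 16) := by positivity
  have h2 : (0 : ℝ) ≤ 1 / (400 * n) := by positivity
  rw [tt]; linarith

theorem vol_sector (n k : ℕ) :
    volume (sector n k) = ENNReal.ofReal (1 / n * tt n k ^ 2 / 2) := by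
  have h : et n k ≤ et n (k + 1) := by rw [et_succ]; simp
  rw [sector, volume_sector (by linarith [tt_nonneg n k]) h]
  congr 3
  rw [et_succ]; ring

noncomputable def nn (n k : ℕ) : ℝ := Real.sqrt (1 + aa n k ^ 2 + 49 / 100 * bb n k ^ 2)

theorem nn_pos (n k : ℕ) : 0 < nn n k := Real.sqrt_pos.mpr (by positivity)

theorem nn_sq (n k : ℕ) : nn n k ^ 2 = 1 + aa n k ^ 2 + 49 / 100 * bb n k ^ 2 :=
  Real.sq_sqrt (by positivity)

theorem area_calc (n k : ℕ) :
    ENNReal.ofReal (1 / (10 / 7 * nn n k)) * ENNReal.ofReal (1 / n * tt n k ^ 2 / 2) =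
      ENNReal.ofReal (7 / 20 * (1 / n * (tt n k ^ 2 / nn n k))) := by
  have := nn_pos n k
  rw [← ENNReal.ofReal_mul (by positivity)]
  congr 1
  field_simp
  ring

theorem cylI (n k : ℕ) : ∃ (Fr : Frame) (B : Set (ℝ × ℝ)), MeasurableSet B ∧
    area B = ENNReal.ofReal (7 / 20 * (1 / n * (tt n k ^ 2 / nn n k))) ∧
    ∀ x : R3, (1 - 10 / 7 * x 2 + x 0 * bb n k, x 1 - aa n k * x 0) ∈ sector n k →
      x ∈ cylinder Fr B := by
  obtain ⟨Fr, B, h1, h2, h3⟩ := cyl_base ![1, aa n k, 7 / 10 * bb n k]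
    ![bb n k, 0, -(10 / 7)] ![-aa n k, 1, 0] (10 / 7) (nn n k) 1 0 (nn_pos n k)
    (by rw [nn_sq]; simp [dot]; ring) (by simp; positivity) (by norm_num)
    (by ext j; fin_cases j <;> simp [crossv] <;> ring)
    (sector n k) (measurableSet_sector n k)
  refine ⟨Fr, B, h1, ?_, ?_⟩
  · rw [h2, vol_sector, abs_of_pos (by norm_num : (0 : ℝ) < 10 / 7), area_calc]
  · intro x hx
    apply h3
    convert hx using 2
    · simp [dot]; ring
    · simp [dot]; ring

theorem cylJ (n k : ℕ) : ∃ (Fr : Frame) (B : Set (ℝ × ℝ)), MeasurableSet B ∧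
    area B = ENNReal.ofReal (7 / 20 * (1 / n * (tt n k ^ 2 / nn n k))) ∧
    ∀ x : R3, (10 / 7 * x 2 + x 1 * bb n k, -x 0 - aa n k * x 1) ∈ sector n k →
      x ∈ cylinder Fr B := by
  obtain ⟨Fr, B, h1, h2, h3⟩ := cyl_base ![-aa n k, 1, -(7 / 10 * bb n k)]
    ![0, bb n k, 10 / 7] ![-1, -aa n k, 0] (-(10 / 7)) (nn n k) 0 0 (nn_pos n k)
    (by rw [nn_sq]; simp [dot]; ring) (by simp; positivity) (by norm_num)
    (by ext j; fin_cases j <;> simp [crossv] <;> ring)
    (sector n k) (measurableSet_sector n k)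
  refine ⟨Fr, B, h1, ?_, ?_⟩
  · rw [h2, vol_sector, abs_neg, abs_of_pos (by norm_num : (0 : ℝ) < 10 / 7), area_calc]
  · intro x hx
    apply h3
    convert hx using 2
    · simp [dot]; ring
    · simp [dot]; ring

/-- Membership in a sector from the two side conditions. -/
theorem mem_sector {n k : ℕ} (hn : 0 < n) {x y z : ℝ}
    (h0 : 0 ≤ y - et n k * (1 - z) - x * ee (et n k))
    (h1 : y - et n (k + 1) * (1 - z) - x * ee (et n (k + 1)) ≤ 0)
    (h : 1 - z + x * bb n k ≤ tt n k) :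
    (1 - z + x * bb n k, y - aa n k * x) ∈ sector n k := by
  have hn' : (0 : ℝ) < n := by exact_mod_cast hn
  have hd : (0 : ℝ) < 1 / n := by positivity
  have e : et n (k + 1) = et n k + 1 / n := et_succ n k
  refine ⟨⟨?_, h⟩, ?_, ?_⟩
  · by_contra hc
    push Not at hc
    simp only at hc
    have : (y - et n k * (1 - z) - x * ee (et n k)) -
        (y - et n (k + 1) * (1 - z) - x * ee (et n (k + 1))) =
        1 / n * (1 - z + x * bb n k) := by
      rw [bb, ee, ee, e]; ring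
    have h2 : 1 / (n : ℝ) * (1 - z + x * bb n k) < 0 := mul_neg_of_pos_of_neg hd hc
    linarith
  · show et n k * (1 - z + x * bb n k) ≤ y - aa n k * x
    rw [aa]; linarith
  · show y - aa n k * x ≤ et n (k + 1) * (1 - z + x * bb n k)
    have : ee (et n (k + 1)) = aa n k + et n (k + 1) * bb n k := by
      rw [aa, bb, ee, ee, e]; ring
    rw [this] at h1
    linarith

/-- The covering of the tetrahedron. -/
theorem covering {n : ℕ} (hn : 0 < n) {x : R3} (hx : x ∈ tetra) :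
    (∃ k, k < n ∧ (1 - 10 / 7 * x 2 + x 0 * bb n k, x 1 - aa n k * x 0) ∈ sector n k) ∨
    ∃ k, k < n ∧ (10 / 7 * x 2 + x 1 * bb n k, -x 0 - aa n k * x 1) ∈ sector n k := by
  obtain ⟨t0, t1, t2, t3⟩ := hx
  have hx0 : |x 0| ≤ 1 / 2 := by rw [abs_le]; constructor <;> linarith
  have hx1 : |x 1| ≤ 1 / 2 := by rw [abs_le]; constructor <;> linarith
  obtain ⟨k, hk, a1, a2, η, a3, a4, a5, a6⟩ := select (x := x 0) (y := x 1) (z := 10 / 7 * x 2) hn
    (by linarith) (by linarith)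
  obtain ⟨l, hl, c1, c2, ξ, c3, c4, c5, c6⟩ := select (x := x 1) (y := -x 0)
    (z := 1 - 10 / 7 * x 2) hn (by linarith) (by linarith)
  by_cases hI : 1 - 10 / 7 * x 2 + x 0 * bb n k ≤ tt n k
  · left
    exact ⟨k, hk, mem_sector hn a1 a2 hI⟩
  · by_cases hJ : 10 / 7 * x 2 + x 1 * bb n l ≤ tt n l
    · right
      refine ⟨l, hl, ?_⟩
      have := mem_sector hn c1 c2 (by linarith)
      have e : 1 - (1 - 10 / 7 * x 2) = 10 / 7 * x 2 := by ring
      rw [e] at this
      exact this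
    · exfalso
      push Not at hI hJ
      have V1 := height hn hk hx0 a3 a4 a5 hI
      have V2 := height hn hl hx1 c3 c4 c5 hJ
      refine main_ineq a3 c3 hx0 hx1 ?_ ?_ V1 V2
      · rw [ee] at a6; exact a6
      · rw [ee] at c6; rw [c6]; ring

end Vale.Agent.P243
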