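import Vale.Agent.P243.Fan2
import Vale.Agent.P243.AminDef

open MeasureTheory Set

namespace Vale.Agent.P243

/-- The antiderivative controlling the total area. -/
noncomputable def Phi (η : ℝ) : ℝ := 7 / 640 * η ^ 5 - 23 / 19200 * η ^ 3 - η / 2048

theorem inv_bound {q N : ℝ} (hq : 0 ≤ q) (hq1 : q ≤ 1) (hN : 0 < N) (h : N ^ 2 = 1 + q) :
    1 / N ≤ 1 - q / 2 + 3 / 8 * q ^ 2 := by
  have hr : 0 < 1 - q / 2 + 3 / 8 * q ^ 2 := by nlinarith [sq_nonneg q]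
  rw [div_le_iff₀ hN]
  by_contra hc
  push Not at hc
  have h0 : 0 < (1 - q / 2 + 3 / 8 * q ^ 2) * N := mul_pos hr hN
  have h1 : ((1 - q / 2 + 3 / 8 * q ^ 2) * N) ^ 2 < 1 := by
    generalize (1 - q / 2 + 3 / 8 * q ^ 2) * N = w at *
    nlinarith
  rw [mul_pow, h] at h1
  have e : (1 - q / 2 + 3 / 8 * q ^ 2) ^ 2 * (1 + q) - 1 =
      q ^ 3 * (5 / 8 - 15 / 64 * q + 9 / 64 * q ^ 2) := by ring
  have : 0 ≤ q ^ 3 * (5 / 8 - 15 / 64 * q + 9 / 64 * q ^ 2) := by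
    apply mul_nonneg (by positivity)
    nlinarith [sq_nonneg q]
  linarith

theorem poly_bound {d q : ℝ} (hd : 0 ≤ d) (hd1 : d ≤ 1 / 1000000) (hq : 0 ≤ q)
    (hq1 : q ≤ 1 / 200000) :
    (1 / 2 + d) ^ 2 * (1 - q / 2 + 3 / 8 * q ^ 2) ≤ 1 / 4 + d - q / 8 + 1 / 10000000000 := by
  have s1 : d ^ 2 ≤ 1 / 1000000000000 := by nlinarith
  have s2 : q ^ 2 ≤ 1 / 40000000000 := by nlinarith
  have s3 : 1 / 4 + d + d ^ 2 ≤ 1 := by linarith
  have s4 : (1 / 4 + d + d ^ 2) * q ^ 2 ≤ 1 * (1 / 40000000000) :=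
    mul_le_mul s3 s2 (sq_nonneg _) (by norm_num)
  have s5 : 0 ≤ (d + d ^ 2) * q := by positivity
  have e : (1 / 2 + d) ^ 2 * (1 - q / 2 + 3 / 8 * q ^ 2) =
      1 / 4 + d + d ^ 2 - q / 8 - (d + d ^ 2) * q / 2 + 3 / 8 * ((1 / 4 + d + d ^ 2) * q ^ 2) := by
    ring
  rw [e]; linarith

theorem aa_eq (n k : ℕ) : aa n k = -(1 / 4 + et n k * et n (k + 1)) / 400 := by
  rw [aa, bb, ee]; ring

theorem term_le {n k : ℕ} (hn : 10000000 ≤ n) (hk : k < n) :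
    tt n k ^ 2 / nn n k ≤ 1 / 4 + 1 / 10000 * (et n k ^ 2 / 64 + et n k ^ 4 / 16) -
      (aa n k ^ 2 + 49 / 100 * bb n k ^ 2) / 8 + 51 / 10000000000 + 1 / (400 * n) := by
  have hn0 : 0 < n := by omega
  have hn' : (10000000 : ℝ) ≤ n := by exact_mod_cast hn
  have hθ := et_abs hn0 hk.le
  have hθ' := et_abs hn0 (Nat.succ_le_of_lt hk)
  have hm : |et n k * et n (k + 1)| ≤ 1 / 2 * (1 / 2) := by
    rw [abs_mul]
    exact mul_le_mul hθ hθ' (abs_nonneg _) (by norm_num)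
  have hm' := abs_le.mp hm
  have k1 := abs_le.mp hθ
  have k2 := abs_le.mp hθ'
  have ha : aa n k ^ 2 ≤ 1 / 640000 := by
    rw [aa_eq]
    have h1 : 0 ≤ 1 / 4 + et n k * et n (k + 1) := by linarith [hm'.1]
    have h2 : 1 / 4 + et n k * et n (k + 1) ≤ 1 / 2 := by linarith [hm'.2]
    generalize 1 / 4 + et n k * et n (k + 1) = w at *
    nlinarith
  have hb : bb n k ^ 2 ≤ 1 / 160000 := by
    rw [bb]
    have h1 : et n k + et n (k + 1) ≤ 1 := by linarith [k1.2, k2.2]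
    have h2 : -1 ≤ et n k + et n (k + 1) := by linarith [k1.1, k2.1]
    generalize et n k + et n (k + 1) = w at *
    nlinarith
  have hq0 : 0 ≤ aa n k ^ 2 + 49 / 100 * bb n k ^ 2 := by positivity
  have hq1 : aa n k ^ 2 + 49 / 100 * bb n k ^ 2 ≤ 1 / 200000 := by linarith
  have hinv := inv_bound hq0 (by linarith) (nn_pos n k) (by rw [nn_sq]; ring)
  have ht2 : et n k ^ 2 ≤ 1 / 4 := by
    rw [← sq_abs]; nlinarith [abs_nonneg (et n k)]
  have ht4 : et n k ^ 4 ≤ 1 / 16 := by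
    have : et n k ^ 4 = et n k ^ 2 * et n k ^ 2 := by ring
    rw [this]; nlinarith [sq_nonneg (et n k)]
  have hd1 : (1 : ℝ) / (400 * n) ≤ 1 / 4000000000 := by
    apply one_div_le_one_div_of_le (by norm_num); linarith
  have hd0 : (0 : ℝ) ≤ 1 / (400 * n) := by positivity
  have htt : tt n k = 1 / 2 + (1 / 10000 * (et n k ^ 2 / 64 + et n k ^ 4 / 16) + 1 / 200000000 +
      1 / (400 * n)) := by rw [tt]; ring
  have hδ0 : 0 ≤ 1 / 10000 * (et n k ^ 2 / 64 + et n k ^ 4 / 16) + 1 / 200000000 +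
      1 / (400 * (n : ℝ)) := by positivity
  have hδ1 : 1 / 10000 * (et n k ^ 2 / 64 + et n k ^ 4 / 16) + 1 / 200000000 +
      1 / (400 * (n : ℝ)) ≤ 1 / 1000000 := by linarith
  have hp := poly_bound hδ0 hδ1 hq0 hq1
  rw [← htt] at hp
  calc tt n k ^ 2 / nn n k = tt n k ^ 2 * (1 / nn n k) := by ring
    _ ≤ tt n k ^ 2 * (1 - (aa n k ^ 2 + 49 / 100 * bb n k ^ 2) / 2 +
        3 / 8 * (aa n k ^ 2 + 49 / 100 * bb n k ^ 2) ^ 2) :=
      mul_le_mul_of_nonneg_left hinv (sq_nonneg _)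
    _ ≤ _ := by linarith

theorem Phi_step {θ Δ : ℝ} (hθ : |θ| ≤ 1 / 2) (h0 : 0 ≤ Δ) (h1 : Δ ≤ 1) :
    Δ * (1 / 10000 * (θ ^ 2 / 64 + θ ^ 4 / 16) - ((-(1 / 4 + θ * (θ + Δ)) / 400) ^ 2 +
      49 / 100 * ((θ + (θ + Δ)) / 400) ^ 2) / 8) ≤
      1 / 10000 * (Phi (θ + Δ) - Phi θ) + 1 / 10000 * Δ ^ 2 := by
  have k1 := abs_le.mp hθ
  have key : 1 / 10000 * (Phi (θ + Δ) - Phi θ) + 1 / 10000 * Δ ^ 2 -
      Δ * (1 / 10000 * (θ ^ 2 / 64 + θ ^ 4 / 16) - ((-(1 / 4 + θ * (θ + Δ)) / 400) ^ 2 +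
      49 / 100 * ((θ + (θ + Δ)) / 400) ^ 2) / 8) =
      1 / 10000 * Δ ^ 2 * (1 + (7 / 640 * (10 * θ ^ 3 + 10 * (θ ^ 2 * Δ) + 5 * (θ * Δ ^ 2) + Δ ^ 3) -
        23 / 19200 * (3 * θ + Δ) +
        1 / 128 * ((2 * (1 / 4 + θ ^ 2) + 49 / 25) * θ + Δ * (θ ^ 2 + 49 / 100)))) := by
    unfold Phi; ring
  have p1 : -(1 / 8) ≤ θ ^ 3 := by
    have : |θ ^ 3| ≤ (1 / 2) ^ 3 := by rw [abs_pow]; exact pow_le_pow_left₀ (abs_nonneg _) hθ 3
    have := (abs_le.mp this).1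
    linarith
  have p2 : 0 ≤ θ ^ 2 * Δ := by positivity
  have p3 : -(1 / 2) ≤ θ * Δ ^ 2 := by
    have : Δ ^ 2 ≤ 1 := by nlinarith
    have : |θ * Δ ^ 2| ≤ 1 / 2 * 1 := by
      rw [abs_mul, abs_of_nonneg (sq_nonneg Δ)]
      exact mul_le_mul hθ this (sq_nonneg _) (by norm_num)
    have := (abs_le.mp this).1
    linarith
  have p4 : 0 ≤ Δ ^ 3 := by positivity
  have pos : 0 ≤ 1 + (7 / 640 * (10 * θ ^ 3 + 10 * (θ ^ 2 * Δ) + 5 * (θ * Δ ^ 2) + Δ ^ 3) -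
        23 / 19200 * (3 * θ + Δ) +
        1 / 128 * ((2 * (1 / 4 + θ ^ 2) + 49 / 25) * θ + Δ * (θ ^ 2 + 49 / 100))) := by
    nlinarith [k1.1, k1.2]
  have := mul_nonneg (by positivity : 0 ≤ 1 / 10000 * Δ ^ 2) pos
  linarith

theorem sum_lt {n : ℕ} (hn : 10000000 ≤ n) :
    ∑ k ∈ Finset.range n, 1 / (n : ℝ) * (tt n k ^ 2 / nn n k) < 1 / 4 := by
  have hn0 : 0 < n := by omega
  have hn' : (10000000 : ℝ) ≤ n := by exact_mod_cast hn
  have hnpos : (0 : ℝ) < n := by linarith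
  have hinv0 : (0 : ℝ) < 1 / n := by positivity
  have hinv1 : (1 : ℝ) / n ≤ 1 / 10000000 := one_div_le_one_div_of_le (by norm_num) hn'
  have step : ∀ k ∈ Finset.range n, 1 / (n : ℝ) * (tt n k ^ 2 / nn n k) ≤
      (1 / 4 + 51 / 10000000000 + 1 / (400 * n)) * (1 / n) +
        (1 / 10000 * (Phi (et n (k + 1)) - Phi (et n k)) + 1 / 10000 * (1 / (n : ℝ)) ^ 2) := by
    intro k hk
    have hk' := Finset.mem_range.mp hk
    have h1 := mul_le_mul_of_nonneg_left (term_le hn hk') hinv0.le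
    have h2 := Phi_step (et_abs hn0 hk'.le) hinv0.le (by linarith)
    rw [← et_succ] at h2
    have e1 : bb n k = (et n k + et n (k + 1)) / 400 := rfl
    rw [aa_eq, e1] at h1
    calc 1 / (n : ℝ) * (tt n k ^ 2 / nn n k) ≤ _ := h1
      _ = (1 / 4 + 51 / 10000000000 + 1 / (400 * n)) * (1 / n) +
        1 / (n : ℝ) * (1 / 10000 * (et n k ^ 2 / 64 + et n k ^ 4 / 16) -
          ((-(1 / 4 + et n k * et n (k + 1)) / 400) ^ 2 +
          49 / 100 * ((et n k + et n (k + 1)) / 400) ^ 2) / 8) := by ring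
      _ ≤ _ := by linarith
  refine lt_of_le_of_lt (Finset.sum_le_sum step) ?_
  have hS1 : ∑ x ∈ Finset.range n, 1 / 10000 * (Phi (et n (x + 1)) - Phi (et n x)) =
      1 / 10000 * (Phi (1 / 2) - Phi (-(1 / 2))) := by
    rw [← Finset.mul_sum, Finset.sum_range_sub (fun k => Phi (et n k)), et_last hn0, et_zero]
  rw [Finset.sum_add_distrib, Finset.sum_add_distrib, hS1, Finset.sum_const, Finset.sum_const,
    Finset.card_range, nsmul_eq_mul, nsmul_eq_mul]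
  have e2 : (n : ℝ) * ((1 / 4 + 51 / 10000000000 + 1 / (400 * n)) * (1 / n)) =
      1 / 4 + 51 / 10000000000 + 1 / 400 * (1 / n) := by field_simp
  have e3 : (n : ℝ) * (1 / 10000 * (1 / (n : ℝ)) ^ 2) = 1 / 10000 * (1 / n) := by field_simp
  rw [e2, e3]
  have e4 : Phi (1 / 2) - Phi (-(1 / 2)) ≤ -(104 / 1000000) := by
    unfold Phi; norm_num
  linarith

theorem main : ∃ (K : Set R3) (m : ℕ) (F : Fin m → Frame) (B : Fin m → Set (ℝ × ℝ)),
    IsConvexBody K ∧ (∀ i, MeasurableSet (B i)) ∧ (∀ i, area (B i) < ⊤) ∧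
    K ⊆ ⋃ i, cylinder (F i) (B i) ∧
    ∑ i, (area (B i)).toReal < 1 / 2 * Amin K := by
  obtain ⟨n, hn⟩ : ∃ n : ℕ, 10000000 ≤ n := ⟨_, le_rfl⟩
  have hn0 : 0 < n := by omega
  choose FI BI hI1 hI2 hI3 using cylI n
  choose FJ BJ hJ1 hJ2 hJ3 using cylJ n
  refine ⟨tetra, n + n, Fin.append (fun i : Fin n => FI i) (fun i : Fin n => FJ i),
    Fin.append (fun i : Fin n => BI i) (fun i : Fin n => BJ i), isConvexBody_tetra, ?_, ?_, ?_, ?_⟩
  · intro i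
    refine Fin.addCases (fun j => ?_) (fun j => ?_) i
    · rw [Fin.append_left]; exact hI1 j
    · rw [Fin.append_right]; exact hJ1 j
  · intro i
    refine Fin.addCases (fun j => ?_) (fun j => ?_) i
    · rw [Fin.append_left, hI2]; exact ENNReal.ofReal_lt_top
    · rw [Fin.append_right, hJ2]; exact ENNReal.ofReal_lt_top
  · intro x hx
    rw [mem_iUnion]
    rcases covering hn0 hx with ⟨k, hk, h⟩ | ⟨k, hk, h⟩
    · refine ⟨Fin.castAdd n ⟨k, hk⟩, ?_⟩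
      rw [Fin.append_left, Fin.append_left]
      exact hI3 k x h
    · refine ⟨Fin.natAdd n ⟨k, hk⟩, ?_⟩
      rw [Fin.append_right, Fin.append_right]
      exact hJ3 k x h
  · have hA : 7 / 20 ≤ Amin tetra := by
      have : Nonempty Frame := ⟨FI 0⟩
      exact le_ciInf fun G => shadow_ge G
    have hsum : ∑ i : Fin (n + n), (area (Fin.append (fun i : Fin n => BI i)
        (fun i : Fin n => BJ i) i)).toReal =
        7 / 10 * ∑ k ∈ Finset.range n, 1 / (n : ℝ) * (tt n k ^ 2 / nn n k) := by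
      rw [Fin.sum_univ_add]
      have h1 : ∀ i : Fin n, (area (Fin.append (fun i : Fin n => BI i)
          (fun i : Fin n => BJ i) (Fin.castAdd n i))).toReal =
          (fun k : ℕ => 7 / 20 * (1 / (n : ℝ) * (tt n k ^ 2 / nn n k))) i := by
        intro i
        have := nn_pos n i
        rw [Fin.append_left, hI2, ENNReal.toReal_ofReal (by positivity)]
      have h2 : ∀ i : Fin n, (area (Fin.append (fun i : Fin n => BI i)
          (fun i : Fin n => BJ i) (Fin.natAdd n i))).toReal =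
          (fun k : ℕ => 7 / 20 * (1 / (n : ℝ) * (tt n k ^ 2 / nn n k))) i := by
        intro i
        have := nn_pos n i
        rw [Fin.append_right, hJ2, ENNReal.toReal_ofReal (by positivity)]
      rw [Finset.sum_congr rfl fun i _ => h1 i, Finset.sum_congr rfl fun i _ => h2 i,
        Fin.sum_univ_eq_sum_range (fun k : ℕ => 7 / 20 * (1 / (n : ℝ) * (tt n k ^ 2 / nn n k))) n,
        ← Finset.mul_sum]
      ring
    rw [hsum]
    have := sum_lt hn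
    linarith

end Vale.Agent.P243
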