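import Vale.Agent.P243.Basic

open MeasureTheory Set Vale.Agent.P243

namespace Vale.Agent.P243.Four

/-- The simplex used in the covering. -/
def simplex : Set R3 :=
  {x | 0 ≤ x 0 ∧ 0 ≤ x 1 ∧ 0 ≤ x 2 ∧ x 0 + x 1 + x 2 ≤ 1}

theorem isCompact_simplex : IsCompact simplex := by
  have hclosed : IsClosed simplex := by
    have h0 : Continuous fun x : R3 => x 0 := by fun_prop
    have h1 : Continuous fun x : R3 => x 1 := by fun_prop
    have h2 : Continuous fun x : R3 => x 2 := by fun_prop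
    exact ((isClosed_le continuous_const h0).inter ((isClosed_le continuous_const h1).inter
      ((isClosed_le continuous_const h2).inter (isClosed_le ((h0.add h1).add h2)
        continuous_const))))
  have hbdd : Bornology.IsBounded simplex := by
    refine (Metric.isBounded_closedBall (x := (0 : R3)) (r := 1)).subset ?_
    intro x hx
    obtain ⟨h0, h1, h2, h3⟩ := hx
    rw [mem_closedBall_zero_iff, pi_norm_le_iff_of_nonneg (by norm_num)]
    intro i
    rw [Real.norm_eq_abs, abs_le]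
    fin_cases i
    · exact ⟨by show -1 ≤ x 0; linarith, by show x 0 ≤ 1; linarith⟩
    · exact ⟨by show -1 ≤ x 1; linarith, by show x 1 ≤ 1; linarith⟩
    · exact ⟨by show -1 ≤ x 2; linarith, by show x 2 ≤ 1; linarith⟩
  exact Metric.isCompact_of_isClosed_isBounded hclosed hbdd

theorem convex_simplex : Convex ℝ simplex := by
  intro x hx y hy a b ha hb hab
  obtain ⟨h0, h1, h2, h3⟩ := hx
  obtain ⟨k0, k1, k2, k3⟩ := hy
  refine ⟨?_, ?_, ?_, ?_⟩
  · simp only [Pi.add_apply, Pi.smul_apply, smul_eq_mul]; positivity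
  · simp only [Pi.add_apply, Pi.smul_apply, smul_eq_mul]; positivity
  · simp only [Pi.add_apply, Pi.smul_apply, smul_eq_mul]; positivity
  · simp only [Pi.add_apply, Pi.smul_apply, smul_eq_mul]
    nlinarith [mul_le_mul_of_nonneg_left h3 ha, mul_le_mul_of_nonneg_left k3 hb]

theorem interior_simplex_nonempty : (interior simplex).Nonempty := by
  let U : Set R3 := {x | 0 < x 0 ∧ 0 < x 1 ∧ 0 < x 2 ∧ x 0 + x 1 + x 2 < 1}
  have hU : IsOpen U := by
    have h0 : Continuous fun x : R3 => x 0 := by fun_prop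
    have h1 : Continuous fun x : R3 => x 1 := by fun_prop
    have h2 : Continuous fun x : R3 => x 2 := by fun_prop
    exact ((isOpen_lt continuous_const h0).inter ((isOpen_lt continuous_const h1).inter
      ((isOpen_lt continuous_const h2).inter (isOpen_lt ((h0.add h1).add h2)
        continuous_const))))
  have hsub : U ⊆ simplex := fun x hx => ⟨hx.1.le, hx.2.1.le, hx.2.2.1.le, hx.2.2.2.le⟩
  refine ⟨![(1 / 4 : ℝ), 1 / 4, 1 / 4], interior_maximal hsub hU ?_⟩
  refine ⟨?_, ?_, ?_, ?_⟩ <;> (simp; try norm_num)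

theorem isConvexBody_simplex : IsConvexBody simplex :=
  ⟨isCompact_simplex, convex_simplex, interior_simplex_nonempty⟩

/-- The linear map with given coefficients. -/
noncomputable def lin (a b : Fin 3 → ℝ) : R3 →ₗ[ℝ] ℝ × ℝ where
  toFun x := (a 0 * x 0 + a 1 * x 1 + a 2 * x 2, b 0 * x 0 + b 1 * x 1 + b 2 * x 2)
  map_add' x y := by
    simp only [Pi.add_apply, Prod.mk_add_mk, Prod.mk.injEq]
    constructor <;> ring
  map_smul' c x := by
    simp only [Pi.smul_apply, smul_eq_mul, RingHom.id_apply, Prod.smul_mk, Prod.mk.injEq]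
    constructor <;> ring

theorem lin_apply (a b : Fin 3 → ℝ) (x : R3) :
    lin a b x = (a 0 * x 0 + a 1 * x 1 + a 2 * x 2, b 0 * x 0 + b 1 * x 1 + b 2 * x 2) := rfl

/-- The common shape of the four bases, in the coordinates `(t, w)`: a union of two triangles. -/
def shape : Set (ℝ × ℝ) :=
  regionBetween (fun t : ℝ => -(1251 / 10000) + 1 * t)
      (fun t : ℝ => 2958 / 10000 + (-(9 / 16)) * t) (Icc 0 (4209 / 15625)) ∪
    regionBetween (fun t : ℝ => 2957 / 10000 + (-(9 / 16)) * t)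
      (fun t : ℝ => 3559 / 10000 + (-(13 / 12)) * t) (Icc 0 (602 * 48 / 250000))

theorem mem_shape {t w : ℝ} (ht : 0 ≤ t) (h1 : -(1251 / 10000) + t < w)
    (h2 : w < 2958 / 10000 - 9 / 16 * t ∨ w < 3559 / 10000 - 13 / 12 * t) : (t, w) ∈ shape := by
  by_cases h3 : w < 2958 / 10000 - 9 / 16 * t
  · left
    refine ⟨⟨ht, ?_⟩, ?_, ?_⟩
    · show t ≤ _
      linarith
    · show -(1251 / 10000) + 1 * t < w
      linarith
    · show w < 2958 / 10000 + (-(9 / 16)) * t
      linarith
  · rcases h2 with h2 | h2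
    · exact absurd h2 h3
    · right
      push Not at h3
      refine ⟨⟨ht, ?_⟩, ?_, ?_⟩
      · show t ≤ _
        linarith
      · show 2957 / 10000 + (-(9 / 16)) * t < w
        linarith
      · show w < 3559 / 10000 + (-(13 / 12)) * t
        linarith

theorem measurableSet_shape : MeasurableSet shape :=
  (measurableSet_triangle _ _ _ _ _).union (measurableSet_triangle _ _ _ _ _)

theorem volume_shape : volume shape ≤ ENNReal.ofReal (4814 / 80000) := by
  refine (measure_union_le _ _).trans ?_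
  rw [volume_triangle (by norm_num) (by norm_num) (by norm_num),
    volume_triangle (by norm_num) (by norm_num) (by norm_num), ← ENNReal.ofReal_add (by norm_num)
    (by norm_num)]
  apply ENNReal.ofReal_le_ofReal
  norm_num

/-- The projected simplex, in the coordinates `(t, w)`. -/
def tri : Set (ℝ × ℝ) :=
  regionBetween (fun t : ℝ => -(1 / 4) + 1 / 4 * t) (fun t : ℝ => 3 / 4 + (-(3 / 4)) * t) (Icc 0 1)

theorem volume_tri : volume tri = ENNReal.ofReal (1 / 2) := by
  rw [tri, volume_triangle (by norm_num) (by norm_num) (by norm_num)]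
  norm_num

/-- The linear inequality behind the covering: every point of the simplex, with barycentric
coordinates `a, b, c, d`, lies in one of the four cylinders. -/
theorem cover (a b c d : ℝ) (ha : 0 ≤ a) (hb : 0 ≤ b) (hc : 0 ≤ c) (hd : 0 ≤ d)
    (h : a + b + c + d = 1) :
    (d, 3 / 4 * b - 1 / 4 * c) ∈ shape ∨ (a, 3 / 4 * c - 1 / 4 * d) ∈ shape ∨
      (b, 3 / 4 * d - 1 / 4 * a) ∈ shape ∨ (c, 3 / 4 * a - 1 / 4 * b) ∈ shape := by
  by_contra hcon
  push Not at hcon
  obtain ⟨n1, n2, n3, n4⟩ := hcon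
  have key : ∀ t w : ℝ, 0 ≤ t → (t, w) ∉ shape →
      w ≤ -(1251 / 10000) + t ∨
        (2958 / 10000 - 9 / 16 * t ≤ w ∧ 3559 / 10000 - 13 / 12 * t ≤ w) := by
    intro t w ht hn
    by_contra hc'
    push Not at hc'
    refine hn (mem_shape ht hc'.1 ?_)
    by_contra h2
    push Not at h2
    exact absurd (hc'.2 h2.1) (not_lt.mpr h2.2)
  have hd' : d = 1 - a - b - c := by linarith
  subst hd'
  rcases key _ _ hd n1 with k1 | ⟨k1, l1⟩ <;> rcases key _ _ ha n2 with k2 | ⟨k2, l2⟩ <;>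
    rcases key _ _ hb n3 with k3 | ⟨k3, l3⟩ <;> rcases key _ _ hc n4 with k4 | ⟨k4, l4⟩ <;>
    linarith

/-- The four (unnormalised) directions. -/
noncomputable def v : Fin 4 → R3 := ![![-4, 1, 3], ![0, -4, 1], ![3, 0, -4], ![1, 3, 0]]

/-- The linear parts of the four planar coordinate systems. -/
noncomputable def F : Fin 4 → (R3 →ₗ[ℝ] ℝ × ℝ) :=
  ![lin ![-1, -1, -1] ![0, 3 / 4, -(1 / 4)], lin ![1, 0, 0] ![1 / 4, 1 / 4, 1],
    lin ![0, 1, 0] ![-1, -(3 / 4), -(3 / 4)], lin ![0, 0, 1] ![3 / 4, -(1 / 4), 0]]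

/-- The constant parts of the four planar coordinate systems. -/
noncomputable def c0 : Fin 4 → ℝ × ℝ := ![(1, 0), (0, -(1 / 4)), (0, 3 / 4), (0, 0)]

theorem v_pos (i : Fin 4) : 0 < v i 0 ^ 2 + v i 1 ^ 2 := by
  fin_cases i <;> (simp [v]; try norm_num)

theorem F_v (i : Fin 4) : F i (v i) = 0 := by
  fin_cases i <;> (simp [F, v, lin_apply]; try norm_num)

theorem F_ker (i : Fin 4) (x : R3) (hx : F i x = 0) : ∃ c : ℝ, x = c • v i := by
  fin_cases i
  · simp only [F, lin_apply, Fin.mk_zero, Matrix.cons_val_zero, Matrix.cons_val_one,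
      Matrix.cons_val, Prod.mk_eq_zero] at hx
    refine ⟨-(x 0) / 4, ?_⟩
    ext j
    fin_cases j <;> simp [v] <;> linarith [hx.1, hx.2]
  · simp only [F, lin_apply, Matrix.cons_val_zero, Matrix.cons_val_one,
      Matrix.cons_val, Prod.mk_eq_zero, Fin.mk_one] at hx
    refine ⟨x 2, ?_⟩
    ext j
    fin_cases j <;> simp [v] <;> linarith [hx.1, hx.2]
  · simp only [F, lin_apply, Matrix.cons_val_zero, Matrix.cons_val_one,
      Matrix.cons_val, Prod.mk_eq_zero, Fin.reduceFinMk] at hx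
    refine ⟨x 0 / 3, ?_⟩
    ext j
    fin_cases j <;> simp [v] <;> linarith [hx.1, hx.2]
  · simp only [F, lin_apply, Matrix.cons_val_zero, Matrix.cons_val_one,
      Matrix.cons_val, Prod.mk_eq_zero, Fin.reduceFinMk] at hx
    refine ⟨x 0, ?_⟩
    ext j
    fin_cases j <;> simp [v] <;> linarith [hx.1, hx.2]

/-- The four coordinate systems, in terms of the coordinates of the point. -/
theorem F_c0 (x : R3) :
    F 0 x + c0 0 = (1 - x 0 - x 1 - x 2, 3 / 4 * x 1 - 1 / 4 * x 2) ∧
    F 1 x + c0 1 = (x 0, 3 / 4 * x 2 - 1 / 4 * (1 - x 0 - x 1 - x 2)) ∧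
    F 2 x + c0 2 = (x 1, 3 / 4 * (1 - x 0 - x 1 - x 2) - 1 / 4 * x 0) ∧
    F 3 x + c0 3 = (x 2, 3 / 4 * x 0 - 1 / 4 * x 1) := by
  refine ⟨?_, ?_, ?_, ?_⟩ <;>
    (simp only [F, c0, lin_apply, Matrix.cons_val_zero, Matrix.cons_val_one, Matrix.cons_val,
      Prod.mk_add_mk, Prod.mk.injEq]; constructor <;> ring)

/-- The triangle `tri` is contained in the image of the simplex in each coordinate system. -/
theorem tri_subset (i : Fin 4) : ∀ p ∈ tri, ∃ x ∈ simplex, F i x + c0 i = p := by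
  rintro ⟨t, w⟩ ⟨⟨ht0, ht1⟩, h1, h2⟩
  have h1' : -(1 / 4) + 1 / 4 * t < w := h1
  have h2' : w < 3 / 4 + (-(3 / 4)) * t := h2
  -- barycentric coordinates `(p, q, r, t)` of a suitable point
  obtain ⟨p, q, r, hp, hq, hr, hsum, hw⟩ : ∃ p q r : ℝ, 0 ≤ p ∧ 0 ≤ q ∧ 0 ≤ r ∧
      p + q + r + t = 1 ∧ 3 / 4 * q - 1 / 4 * r = w := by
    rcases le_total 0 w with hw | hw
    · exact ⟨1 - t - 4 / 3 * w, 4 / 3 * w, 0, by linarith, by linarith, le_refl _, by ring,
        by ring⟩
    · exact ⟨1 - t + 4 * w, 0, -4 * w, by linarith, le_refl _, by linarith, by ring, by ring⟩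
  have hF := fun x : R3 => F_c0 x
  fin_cases i
  · refine ⟨![p, q, r], ⟨?_, ?_, ?_, ?_⟩, ?_⟩
    · simpa using hp
    · simpa using hq
    · simpa using hr
    · simp; linarith
    · refine (hF _).1.trans ?_
      simp only [Prod.mk.injEq]
      constructor
      · simp; linarith
      · simp; linarith
  · refine ⟨![t, p, q], ⟨?_, ?_, ?_, ?_⟩, ?_⟩
    · simpa using ht0
    · simpa using hp
    · simpa using hq
    · simp; linarith
    · refine (hF _).2.1.trans ?_
      simp only [Prod.mk.injEq]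
      constructor
      · simp
      · simp; linarith
  · refine ⟨![r, t, p], ⟨?_, ?_, ?_, ?_⟩, ?_⟩
    · simpa using hr
    · simpa using ht0
    · simpa using hp
    · simp; linarith
    · refine (hF _).2.2.1.trans ?_
      simp only [Prod.mk.injEq]
      constructor
      · simp
      · simp; linarith
  · refine ⟨![q, r, t], ⟨?_, ?_, ?_, ?_⟩, ?_⟩
    · simpa using hq
    · simpa using hr
    · simpa using ht0
    · simp; linarith
    · refine (hF _).2.2.2.trans ?_
      simp only [Prod.mk.injEq]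
      constructor
      · simp
      · simp; linarith

/-- The covering of the simplex by four cylinders of total relative area at most `0.4814`. -/
theorem main : ∃ (K : Set R3) (F : Fin 4 → Frame) (B : Fin 4 → Set (ℝ × ℝ)),
    IsConvexBody K ∧ (∀ i, MeasurableSet (B i)) ∧ (∀ i, area (B i) < ⊤) ∧
    (∀ i, 0 < area (shadow (F i) K) ∧ area (shadow (F i) K) < ⊤) ∧
    K ⊆ ⋃ i, cylinder (F i) (B i) ∧ relativeArea K F B ≤ 4814 / 10000 := by
  have hfr : ∀ i : Fin 4, ∃ Fr : Frame, ∃ R : ℝ, R ≠ 0 ∧ v i = R • Fr.u :=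
    fun i => exists_frame (v i) (v_pos i)
  choose Fr R hR hvR using hfr
  have hmain : ∀ i : Fin 4, ∃ B : Set (ℝ × ℝ), MeasurableSet B ∧ area B < ⊤ ∧
      0 < area (shadow (Fr i) simplex) ∧ area (shadow (Fr i) simplex) < ⊤ ∧
      (area B).toReal / (area (shadow (Fr i) simplex)).toReal ≤ 2 * (4814 / 80000) ∧
      ∀ x, F i x + c0 i ∈ shape → x ∈ cylinder (Fr i) B := by
    intro i
    refine one_direction (Fr i) (F i) ?_ ?_ (c0 i) isCompact_simplex measurableSet_shape
      (by norm_num) volume_shape volume_tri (tri_subset i)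
    · have h := F_v i
      rw [hvR i, map_smul] at h
      exact (smul_eq_zero.mp h).resolve_left (hR i)
    · intro x hx
      obtain ⟨c, hc⟩ := F_ker i x hx
      refine ⟨c * R i, ?_⟩
      rw [hc, hvR i, smul_smul]
  choose B hB1 hB2 hB3 hB4 hB5 hB6 using hmain
  refine ⟨simplex, Fr, B, isConvexBody_simplex, hB1, hB2, fun i => ⟨hB3 i, hB4 i⟩, ?_, ?_⟩
  · intro x hx
    obtain ⟨h0, h1, h2, h3⟩ := hx
    obtain ⟨e0, e1, e2, e3⟩ := F_c0 x
    rw [mem_iUnion]
    rcases cover (x 0) (x 1) (x 2) (1 - x 0 - x 1 - x 2) h0 h1 h2 (by linarith) (by ring)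
      with h | h | h | h
    · exact ⟨0, hB6 0 x (by rw [e0]; exact h)⟩
    · exact ⟨1, hB6 1 x (by rw [e1]; exact h)⟩
    · exact ⟨2, hB6 2 x (by rw [e2]; exact h)⟩
    · exact ⟨3, hB6 3 x (by rw [e3]; exact h)⟩
  · calc relativeArea simplex Fr B ≤ ∑ _i : Fin 4, (2 * (4814 / 80000) : ℝ) :=
        Finset.sum_le_sum fun i _ => hB5 i
      _ = 4814 / 10000 := by simp; norm_num

end Vale.Agent.P243.Four
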