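import Vale.Agent.P243.Basic

open MeasureTheory Set

namespace Vale.Agent.P243

/-- The planar cross product. -/
def cr (a b : ℝ × ℝ) : ℝ := a.1 * b.2 - a.2 * b.1

theorem image_vol (a b c : ℝ × ℝ) (S : Set (ℝ × ℝ)) :
    volume ((fun p : ℝ × ℝ => (a.1 * p.1 + b.1 * p.2 + c.1, a.2 * p.1 + b.2 * p.2 + c.2)) '' S) =
      ENNReal.ofReal |cr a b| * volume S := by
  let f : ℝ × ℝ →ₗ[ℝ] ℝ × ℝ :=
    Matrix.toLin (Module.Basis.finTwoProd ℝ) (Module.Basis.finTwoProd ℝ) !![a.1, b.1; a.2, b.2]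
  have hf : ∀ p : ℝ × ℝ, f p = (a.1 * p.1 + b.1 * p.2, a.2 * p.1 + b.2 * p.2) := by
    intro p
    show Matrix.toLin _ _ _ p = _
    rw [Matrix.toLin_finTwoProd_apply]
  have hdet : LinearMap.det f = cr a b := by
    rw [LinearMap.det_toLin, Matrix.det_fin_two_of, cr]; ring
  have h1 : (fun p : ℝ × ℝ => (a.1 * p.1 + b.1 * p.2 + c.1, a.2 * p.1 + b.2 * p.2 + c.2)) '' S =
      (fun x => x + (-c)) ⁻¹' (f '' S) := by
    rw [← Set.image_add_right, Set.image_image]
    apply Set.image_congr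
    intro p _
    rw [hf]
    rfl
  rw [h1, measure_preimage_add_right, Measure.addHaar_image_linearMap, hdet]

theorem preimage_vol (a b c : ℝ × ℝ) (hab : cr a b ≠ 0) (S : Set (ℝ × ℝ)) :
    volume {p : ℝ × ℝ | (a.1 * p.1 + b.1 * p.2 + c.1, a.2 * p.1 + b.2 * p.2 + c.2) ∈ S} =
      ENNReal.ofReal |(cr a b)⁻¹| * volume S := by
  let f : ℝ × ℝ →ₗ[ℝ] ℝ × ℝ :=
    Matrix.toLin (Module.Basis.finTwoProd ℝ) (Module.Basis.finTwoProd ℝ) !![a.1, b.1; a.2, b.2]
  have hf : ∀ p : ℝ × ℝ, f p = (a.1 * p.1 + b.1 * p.2, a.2 * p.1 + b.2 * p.2) := by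
    intro p
    show Matrix.toLin _ _ _ p = _
    rw [Matrix.toLin_finTwoProd_apply]
  have hdet : LinearMap.det f = cr a b := by
    rw [LinearMap.det_toLin, Matrix.det_fin_two_of, cr]; ring
  have h1 : {p : ℝ × ℝ | (a.1 * p.1 + b.1 * p.2 + c.1, a.2 * p.1 + b.2 * p.2 + c.2) ∈ S} =
      f ⁻¹' ((fun x => x + c) ⁻¹' S) := by
    ext p
    show _ ↔ f p + c ∈ S
    rw [hf]
    rfl
  rw [h1, Measure.addHaar_preimage_linearMap volume (by rw [hdet]; exact hab),
    measure_preimage_add_right, hdet]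

/-- An open triangle of area one half. -/
def tri0 : Set (ℝ × ℝ) :=
  regionBetween (fun t : ℝ => 0 + 0 * t) (fun t : ℝ => 1 + (-1) * t) (Icc 0 1)

theorem volume_tri0 : volume tri0 = ENNReal.ofReal (1 / 2) := by
  rw [tri0, volume_triangle (by norm_num) (by norm_num) (by norm_num)]
  norm_num

/-- the closed sector -/
theorem volume_sector {η η' τ : ℝ} (hτ : 0 ≤ τ) (hη : η ≤ η') :
    volume {p : ℝ × ℝ | (0 ≤ p.1 ∧ p.1 ≤ τ) ∧ η * p.1 ≤ p.2 ∧ p.2 ≤ η' * p.1} =
      ENNReal.ofReal ((η' - η) * τ ^ 2 / 2) := by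
  have hm : MeasurableSet {p : ℝ × ℝ | (0 ≤ p.1 ∧ p.1 ≤ τ) ∧ η * p.1 ≤ p.2 ∧ p.2 ≤ η' * p.1} := by
    apply IsClosed.measurableSet
    apply IsClosed.inter
    · exact (isClosed_le continuous_const continuous_fst).inter
        (isClosed_le continuous_fst continuous_const)
    · have c1 : Continuous fun p : ℝ × ℝ => η * p.1 := by fun_prop
      have c2 : Continuous fun p : ℝ × ℝ => η' * p.1 := by fun_prop
      exact (isClosed_le c1 continuous_snd).inter (isClosed_le continuous_snd c2)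
  rw [Measure.volume_eq_prod, Measure.prod_apply hm]
  have h1 : ∀ t : ℝ, volume (Prod.mk t ⁻¹'
      {p : ℝ × ℝ | (0 ≤ p.1 ∧ p.1 ≤ τ) ∧ η * p.1 ≤ p.2 ∧ p.2 ≤ η' * p.1}) =
      (Icc 0 τ).indicator (fun t => ENNReal.ofReal ((η' - η) * t)) t := by
    intro t
    by_cases ht : t ∈ Icc 0 τ
    · rw [indicator_of_mem ht]
      have : Prod.mk t ⁻¹' {p : ℝ × ℝ | (0 ≤ p.1 ∧ p.1 ≤ τ) ∧ η * p.1 ≤ p.2 ∧ p.2 ≤ η' * p.1} =
          Icc (η * t) (η' * t) := by
        ext w
        exact ⟨fun h => h.2, fun h => ⟨ht, h⟩⟩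
      rw [this, Real.volume_Icc]
      congr 1; ring
    · rw [indicator_of_notMem ht]
      have : Prod.mk t ⁻¹' {p : ℝ × ℝ | (0 ≤ p.1 ∧ p.1 ≤ τ) ∧ η * p.1 ≤ p.2 ∧ p.2 ≤ η' * p.1} =
          ∅ := by
        ext w
        exact ⟨fun h => ht h.1, fun h => h.elim⟩
      rw [this, measure_empty]
  rw [lintegral_congr h1, lintegral_indicator measurableSet_Icc,
    ← ofReal_integral_eq_lintegral_ofReal]
  · congr 1
    rw [integral_Icc_eq_integral_Ioc, ← intervalIntegral.integral_of_le hτ,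
      intervalIntegral.integral_const_mul, integral_id]
    ring
  · exact (by fun_prop : Continuous fun t : ℝ => (η' - η) * t).integrableOn_Icc
  · filter_upwards [ae_restrict_mem measurableSet_Icc] with t ht
    exact mul_nonneg (by linarith) ht.1

theorem image_sub {S : Set (ℝ × ℝ)} (hS : Convex ℝ S) {P Q A : ℝ × ℝ} (hP : P ∈ S) (hQ : Q ∈ S)
    (hA : A ∈ S) :
    (fun p : ℝ × ℝ => ((Q - P).1 * p.1 + (A - P).1 * p.2 + P.1,
      (Q - P).2 * p.1 + (A - P).2 * p.2 + P.2)) '' tri0 ⊆ S := by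
  rintro _ ⟨⟨t, w⟩, hp, rfl⟩
  obtain ⟨⟨ht0, ht1⟩, hw0, hw1⟩ := hp
  simp only at ht0 ht1 hw0 hw1
  have hw0' : 0 < w := by linarith
  have hw1' : w < 1 - t := by linarith
  have hs : 0 < 1 - w := by linarith
  have hR : (1 - t / (1 - w)) • P + (t / (1 - w)) • Q ∈ S :=
    hS hP hQ (by rw [sub_nonneg, div_le_one hs]; linarith) (by positivity) (by ring)
  have hfin := hS hR hA hs.le hw0'.le (by ring)
  convert hfin using 1
  ext
  · simp only [Prod.fst_add, Prod.smul_fst, Prod.fst_sub, smul_eq_mul]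
    field_simp
    ring
  · simp only [Prod.snd_add, Prod.smul_snd, Prod.snd_sub, smul_eq_mul]
    field_simp
    ring

theorem tri_le {S : Set (ℝ × ℝ)} (hS : Convex ℝ S) {P Q A : ℝ × ℝ} (hP : P ∈ S) (hQ : Q ∈ S)
    (hA : A ∈ S) : ENNReal.ofReal (|cr (Q - P) (A - P)| / 2) ≤ volume S := by
  calc ENNReal.ofReal (|cr (Q - P) (A - P)| / 2)
      = ENNReal.ofReal |cr (Q - P) (A - P)| * ENNReal.ofReal (1 / 2) := by
        rw [← ENNReal.ofReal_mul (abs_nonneg _)]; congr 1; ring
    _ = volume _ := by rw [← volume_tri0, ← image_vol (Q - P) (A - P) P tri0]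
    _ ≤ volume S := measure_mono (image_sub hS hP hQ hA)

theorem quad_le {S : Set (ℝ × ℝ)} (hS : Convex ℝ S) {P Q A C : ℝ × ℝ} (hP : P ∈ S) (hQ : Q ∈ S)
    (hA : A ∈ S) (hC : C ∈ S) : ENNReal.ofReal (|cr (Q - P) (C - A)| / 2) ≤ volume S := by
  have hcr : cr (Q - P) (C - A) = cr (Q - P) (C - P) - cr (Q - P) (A - P) := by
    simp only [cr, Prod.fst_sub, Prod.snd_sub]; ring
  by_cases hd : 0 ≤ cr (Q - P) (A - P) * cr (Q - P) (C - P)
  · have : |cr (Q - P) (C - A)| ≤ |cr (Q - P) (A - P)| ∨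
        |cr (Q - P) (C - A)| ≤ |cr (Q - P) (C - P)| := by
      rw [hcr]
      generalize cr (Q - P) (A - P) = d1 at *
      generalize cr (Q - P) (C - P) = d3 at *
      rcases le_total 0 d1 with h1 | h1 <;> rcases le_total 0 d3 with h3 | h3
      · rw [abs_of_nonneg h1, abs_of_nonneg h3]
        rcases le_total d1 d3 with h | h
        · right; rw [abs_of_nonneg (by linarith)]; linarith
        · left; rw [abs_of_nonpos (by linarith)]; linarith
      · have : d1 * d3 = 0 := le_antisymm (mul_nonpos_of_nonneg_of_nonpos h1 h3) hd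
        rcases mul_eq_zero.mp this with h | h
        · right; rw [h, sub_zero]
        · left; rw [h, zero_sub, abs_neg]
      · have : d1 * d3 = 0 := le_antisymm (mul_nonpos_of_nonpos_of_nonneg h1 h3) hd
        rcases mul_eq_zero.mp this with h | h
        · right; rw [h, sub_zero]
        · left; rw [h, zero_sub, abs_neg]
      · rw [abs_of_nonpos h1, abs_of_nonpos h3]
        rcases le_total d1 d3 with h | h
        · left; rw [abs_of_nonneg (by linarith)]; linarith
        · right; rw [abs_of_nonpos (by linarith)]; linarith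
    rcases this with h | h
    · exact (ENNReal.ofReal_le_ofReal (by linarith)).trans (tri_le hS hP hQ hA)
    · exact (ENNReal.ofReal_le_ofReal (by linarith)).trans (tri_le hS hP hQ hC)
  · push Not at hd
    let U : Set (ℝ × ℝ) := {X | 0 < cr (Q - P) (X - P) * cr (Q - P) (A - P)}
    have hU : MeasurableSet U := by
      apply IsOpen.measurableSet
      apply isOpen_lt continuous_const
      unfold cr
      fun_prop
    have hval : ∀ (A' : ℝ × ℝ) (p : ℝ × ℝ), cr (Q - P)
        (((Q - P).1 * p.1 + (A' - P).1 * p.2 + P.1,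
          (Q - P).2 * p.1 + (A' - P).2 * p.2 + P.2) - P) = p.2 * cr (Q - P) (A' - P) := by
      intro A' p
      simp only [cr, Prod.fst_sub, Prod.snd_sub]; ring
    have hpos : ∀ p ∈ tri0, 0 < p.2 := by
      intro p hp
      have := hp.2.1
      simpa using this
    have h1 : (fun p : ℝ × ℝ => ((Q - P).1 * p.1 + (A - P).1 * p.2 + P.1,
      (Q - P).2 * p.1 + (A - P).2 * p.2 + P.2)) '' tri0 ⊆ S ∩ U := by
      refine subset_inter (image_sub hS hP hQ hA) ?_
      rintro _ ⟨p, hp, rfl⟩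
      simp only [U, mem_ofPred_eq]
      rw [hval A p]
      have hne : cr (Q - P) (A - P) ≠ 0 := by
        intro h; rw [h, zero_mul] at hd; exact lt_irrefl _ hd
      have := hpos p hp
      have h2 : 0 < cr (Q - P) (A - P) ^ 2 := by positivity
      nlinarith
    have h3 : (fun p : ℝ × ℝ => ((Q - P).1 * p.1 + (C - P).1 * p.2 + P.1,
      (Q - P).2 * p.1 + (C - P).2 * p.2 + P.2)) '' tri0 ⊆ S \ U := by
      intro X hX
      refine ⟨image_sub hS hP hQ hC hX, ?_⟩
      obtain ⟨p, hp, rfl⟩ := hX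
      simp only [U, mem_ofPred_eq]
      rw [hval C p]
      have := hpos p hp
      nlinarith
    have hsum : |cr (Q - P) (C - A)| = |cr (Q - P) (A - P)| + |cr (Q - P) (C - P)| := by
      rw [hcr]
      generalize cr (Q - P) (A - P) = d1 at *
      generalize cr (Q - P) (C - P) = d3 at *
      rcases lt_trichotomy d1 0 with h | h | h
      · have h' : 0 < d3 := by by_contra hc; push Not at hc; nlinarith
        rw [abs_of_neg h, abs_of_pos h', abs_of_pos (by linarith)]; ring
      · rw [h, zero_mul] at hd; exact absurd hd (lt_irrefl _)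
      · have h' : d3 < 0 := by by_contra hc; push Not at hc; nlinarith
        rw [abs_of_pos h, abs_of_neg h', abs_of_neg (by linarith)]; ring
    calc ENNReal.ofReal (|cr (Q - P) (C - A)| / 2)
        = ENNReal.ofReal |cr (Q - P) (A - P)| * ENNReal.ofReal (1 / 2) +
          ENNReal.ofReal |cr (Q - P) (C - P)| * ENNReal.ofReal (1 / 2) := by
          rw [← ENNReal.ofReal_mul (abs_nonneg _), ← ENNReal.ofReal_mul (abs_nonneg _),
            ← ENNReal.ofReal_add (by positivity) (by positivity), hsum]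
          congr 1; ring
      _ = volume _ + volume _ := by
          rw [← volume_tri0, ← image_vol (Q - P) (A - P) P tri0,
            ← image_vol (Q - P) (C - P) P tri0]
      _ ≤ volume (S ∩ U) + volume (S \ U) := add_le_add (measure_mono h1) (measure_mono h3)
      _ = volume S := measure_inter_add_sdiff S hU

end Vale.Agent.P243
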