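import Vale.Agent.P243.Plane

open MeasureTheory Set

namespace Vale.Agent.P243

/-- The cross product of vectors of three-space. -/
def crossv (a b : R3) : R3 :=
  ![a 1 * b 2 - a 2 * b 1, a 2 * b 0 - a 0 * b 2, a 0 * b 1 - a 1 * b 0]

theorem frame_cross (G : Frame) (w : R3) : |dot w (crossv G.p G.q)| = |dot w G.u| := by
  set n := crossv G.p G.q with hn
  have h1 : dot n G.p = 0 := by simp [hn, crossv, dot]; ring
  have h2 : dot n G.q = 0 := by simp [hn, crossv, dot]; ring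
  have h3 : dot n n = 1 := by
    have : dot n n = dot G.p G.p * dot G.q G.q - dot G.p G.q ^ 2 := by
      simp [hn, crossv, dot]; ring
    rw [this, G.pp, G.qq, G.pq]; norm_num
  have h4 : n = dot n G.u • G.u := by
    have := expand G n
    rw [h1, h2, zero_smul, zero_smul, zero_add, zero_add] at this
    exact this
  have h5 : dot n G.u ^ 2 = 1 := by
    have h6 : dot n n = dot n G.u * dot n G.u := by
      nth_rewrite 1 [h4]
      rw [dot_smul, dot_comm G.u n]
    rw [h3] at h6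
    rw [pow_two]; exact h6.symm
  have h7 : dot w n = dot n G.u * dot w G.u := by
    rw [dot_comm w n]
    nth_rewrite 1 [h4]
    rw [dot_smul, dot_comm G.u w]
  rw [h7, abs_mul]
  have : |dot n G.u| = 1 :=
    (pow_eq_one_iff_of_nonneg (abs_nonneg _) two_ne_zero).mp (by rw [sq_abs]; exact h5)
  rw [this, one_mul]

/-- The projection to the plane of a frame. -/
def pr (G : Frame) (x : R3) : ℝ × ℝ := (dot x G.p, dot x G.q)

theorem cr_pr (G : Frame) (a b : R3) : |cr (pr G a) (pr G b)| = |dot (crossv a b) G.u| := by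
  rw [← frame_cross]
  congr 1
  simp [cr, pr, crossv, dot]
  ring

theorem pr_sub (G : Frame) (a b : R3) : pr G a - pr G b = pr G (a - b) := by
  simp only [pr, dot, Prod.mk_sub_mk, Pi.sub_apply, Prod.mk.injEq]
  constructor <;> ring

theorem convex_shadow (G : Frame) {K : Set R3} (hK : Convex ℝ K) : Convex ℝ (shadow G K) := by
  rintro _ ⟨x, hx, rfl⟩ _ ⟨y, hy, rfl⟩ a b ha hb hab
  refine ⟨a • x + b • y, hK hx hy ha hb hab, ?_⟩
  simp only [dot_add, dot_smul]
  rfl

/-- The tetrahedron. -/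
def tetra : Set R3 :=
  {x | 0 ≤ x 2 + 7 / 5 * x 0 ∧ 0 ≤ x 2 - 7 / 5 * x 0 ∧
    0 ≤ 7 / 10 - x 2 + 7 / 5 * x 1 ∧ 0 ≤ 7 / 10 - x 2 - 7 / 5 * x 1}

theorem isCompact_tetra : IsCompact tetra := by
  have hclosed : IsClosed tetra := by
    have h0 : Continuous fun x : R3 => x 2 + 7 / 5 * x 0 := by fun_prop
    have h1 : Continuous fun x : R3 => x 2 - 7 / 5 * x 0 := by fun_prop
    have h2 : Continuous fun x : R3 => 7 / 10 - x 2 + 7 / 5 * x 1 := by fun_prop
    have h3 : Continuous fun x : R3 => 7 / 10 - x 2 - 7 / 5 * x 1 := by fun_prop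
    exact (isClosed_le continuous_const h0).inter ((isClosed_le continuous_const h1).inter
      ((isClosed_le continuous_const h2).inter (isClosed_le continuous_const h3)))
  have hbdd : Bornology.IsBounded tetra := by
    refine (Metric.isBounded_closedBall (x := (0 : R3)) (r := 1)).subset ?_
    intro x hx
    obtain ⟨h0, h1, h2, h3⟩ := hx
    rw [mem_closedBall_zero_iff, pi_norm_le_iff_of_nonneg (by norm_num)]
    intro i
    rw [Real.norm_eq_abs, abs_le]
    fin_cases i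
    · exact ⟨by show -1 ≤ x 0; linarith, by show x 0 ≤ 1; linarith⟩
    · exact ⟨by show -1 ≤ x 1; linarith, by show x 1 ≤ 1; linarith⟩
    · exact ⟨by show -1 ≤ x 2; linarith, by show x 2 ≤ 1; linarith⟩
  exact Metric.isCompact_of_isClosed_isBounded hclosed hbdd

theorem convex_tetra : Convex ℝ tetra := by
  intro x hx y hy a b ha hb hab
  obtain ⟨h0, h1, h2, h3⟩ := hx
  obtain ⟨k0, k1, k2, k3⟩ := hy
  have e : a = 1 - b := by linarith
  refine ⟨?_, ?_, ?_, ?_⟩ <;> simp only [Pi.add_apply, Pi.smul_apply, smul_eq_mul]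
  · nlinarith [mul_nonneg ha h0, mul_nonneg hb k0]
  · nlinarith [mul_nonneg ha h1, mul_nonneg hb k1]
  · nlinarith [mul_nonneg ha h2, mul_nonneg hb k2]
  · nlinarith [mul_nonneg ha h3, mul_nonneg hb k3]

theorem interior_tetra : (interior tetra).Nonempty := by
  let U : Set R3 := {x | 0 < x 2 + 7 / 5 * x 0 ∧ 0 < x 2 - 7 / 5 * x 0 ∧
    0 < 7 / 10 - x 2 + 7 / 5 * x 1 ∧ 0 < 7 / 10 - x 2 - 7 / 5 * x 1}
  have hU : IsOpen U := by
    have h0 : Continuous fun x : R3 => x 2 + 7 / 5 * x 0 := by fun_prop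
    have h1 : Continuous fun x : R3 => x 2 - 7 / 5 * x 0 := by fun_prop
    have h2 : Continuous fun x : R3 => 7 / 10 - x 2 + 7 / 5 * x 1 := by fun_prop
    have h3 : Continuous fun x : R3 => 7 / 10 - x 2 - 7 / 5 * x 1 := by fun_prop
    exact (isOpen_lt continuous_const h0).inter ((isOpen_lt continuous_const h1).inter
      ((isOpen_lt continuous_const h2).inter (isOpen_lt continuous_const h3)))
  have hsub : U ⊆ tetra := fun x hx => ⟨hx.1.le, hx.2.1.le, hx.2.2.1.le, hx.2.2.2.le⟩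
  refine ⟨![(0 : ℝ), 0, 1 / 4], interior_maximal hsub hU ?_⟩
  refine ⟨?_, ?_, ?_, ?_⟩ <;> (simp; try norm_num)

theorem isConvexBody_tetra : IsConvexBody tetra :=
  ⟨isCompact_tetra, convex_tetra, interior_tetra⟩

/-- The four vertices. -/
noncomputable def v1 : R3 := ![-1 / 2, 0, 7 / 10]
noncomputable def v2 : R3 := ![0, -1 / 2, 0]
noncomputable def v3 : R3 := ![1 / 2, 0, 7 / 10]
noncomputable def v4 : R3 := ![0, 1 / 2, 0]

theorem v1_mem : v1 ∈ tetra := by refine ⟨?_, ?_, ?_, ?_⟩ <;> simp [v1] <;> norm_num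
theorem v2_mem : v2 ∈ tetra := by refine ⟨?_, ?_, ?_, ?_⟩ <;> simp [v2] <;> norm_num
theorem v3_mem : v3 ∈ tetra := by refine ⟨?_, ?_, ?_, ?_⟩ <;> simp [v3] <;> norm_num
theorem v4_mem : v4 ∈ tetra := by refine ⟨?_, ?_, ?_, ?_⟩ <;> simp [v4] <;> norm_num

theorem shadow_fin (G : Frame) : area (shadow G tetra) < ⊤ := by
  apply IsCompact.measure_lt_top
  exact isCompact_tetra.image ((continuous_dot _).prodMk (continuous_dot _))

theorem tri_shadow (G : Frame) {a b c : R3} (ha : a ∈ tetra) (hb : b ∈ tetra) (hc : c ∈ tetra) :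
    |dot (crossv (b - a) (c - a)) G.u| / 2 ≤ (area (shadow G tetra)).toReal := by
  rw [← ENNReal.ofReal_le_iff_le_toReal (shadow_fin G).ne, ← cr_pr, ← pr_sub, ← pr_sub]
  exact tri_le (convex_shadow G convex_tetra) ⟨a, ha, rfl⟩ ⟨b, hb, rfl⟩ ⟨c, hc, rfl⟩

theorem quad_shadow (G : Frame) {a b c d : R3} (ha : a ∈ tetra) (hb : b ∈ tetra) (hc : c ∈ tetra)
    (hd : d ∈ tetra) :
    |dot (crossv (b - a) (d - c)) G.u| / 2 ≤ (area (shadow G tetra)).toReal := by
  rw [← ENNReal.ofReal_le_iff_le_toReal (shadow_fin G).ne, ← cr_pr, ← pr_sub, ← pr_sub]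
  exact quad_le (convex_shadow G convex_tetra) ⟨a, ha, rfl⟩ ⟨b, hb, rfl⟩ ⟨c, hc, rfl⟩ ⟨d, hd, rfl⟩

theorem final_ineq {p q r : ℝ} (hp : 0 ≤ p) (hq : 0 ≤ q) (hr : 0 ≤ r)
    (h : p ^ 2 + q ^ 2 + r ^ 2 = 1) (h1 : p + q < 1) (h2 : r < 7 / 10)
    (h3 : 7 / 10 * p + r / 2 < 7 / 10) (h4 : q ≤ p) : False := by
  have a1 : q ^ 2 < (1 - p) ^ 2 := by
    have : q < 1 - p := by linarith
    nlinarith
  have a2 : r ^ 2 < (49 / 25) * (1 - p) ^ 2 := by
    have : r < 7 / 5 * (1 - p) := by linarith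
    nlinarith
  have a3 : p < 1 := by linarith
  have a4 : p < 1 / 2 := by
    by_contra hc
    push Not at hc
    nlinarith
  nlinarith

theorem shadow_ge (G : Frame) : 7 / 20 ≤ (area (shadow G tetra)).toReal := by
  by_contra hcon
  push Not at hcon
  have hu := G.uu
  have b1 := quad_shadow G v1_mem v3_mem v2_mem v4_mem
  have b2 := quad_shadow G v1_mem v2_mem v3_mem v4_mem
  have b3 := quad_shadow G v1_mem v4_mem v2_mem v3_mem
  have f1 := tri_shadow G v1_mem v3_mem v2_mem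
  have f2 := tri_shadow G v1_mem v3_mem v4_mem
  have f3 := tri_shadow G v2_mem v4_mem v1_mem
  have f4 := tri_shadow G v2_mem v4_mem v3_mem
  generalize (area (shadow G tetra)).toReal = α at *
  generalize G.u = u at *
  simp only [dot, crossv, v1, v2, v3, v4, Pi.sub_apply, Matrix.cons_val_zero, Matrix.cons_val_one,
    Matrix.cons_val] at hu b1 b2 b3 f1 f2 f3 f4
  generalize u 0 = x at *
  generalize u 1 = y at *
  generalize u 2 = z at *
  rw [div_le_iff₀ (by norm_num), abs_le] at b1 b2 b3 f1 f2 f3 f4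
  have c1 : |x| + |y| < 1 := by
    rcases abs_cases x with ⟨h, _⟩ | ⟨h, _⟩ <;> rcases abs_cases y with ⟨k, _⟩ | ⟨k, _⟩ <;>
      rw [h, k] <;> linarith
  have c2 : |z| < 7 / 10 := by
    rcases abs_cases z with ⟨h, _⟩ | ⟨h, _⟩ <;> rw [h] <;> linarith
  have c3 : 7 / 10 * |x| + |z| / 2 < 7 / 10 := by
    rcases abs_cases x with ⟨h, _⟩ | ⟨h, _⟩ <;> rcases abs_cases z with ⟨k, _⟩ | ⟨k, _⟩ <;>
      rw [h, k] <;> linarith
  have c4 : 7 / 10 * |y| + |z| / 2 < 7 / 10 := by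
    rcases abs_cases y with ⟨h, _⟩ | ⟨h, _⟩ <;> rcases abs_cases z with ⟨k, _⟩ | ⟨k, _⟩ <;>
      rw [h, k] <;> linarith
  have c5 : |x| ^ 2 + |y| ^ 2 + |z| ^ 2 = 1 := by
    rw [sq_abs, sq_abs, sq_abs]; linarith
  rcases le_total |y| |x| with h | h
  · exact final_ineq (abs_nonneg _) (abs_nonneg _) (abs_nonneg _) c5 c1 c2 c3 h
  · exact final_ineq (abs_nonneg _) (abs_nonneg _) (abs_nonneg _) (by linarith) (by linarith) c2
      c4 h

end Vale.Agent.P243
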